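import Vale.Agent.P153.Nu.Stm
import Vale.Agent.P153.FKG.Basic
import Vale.Agent.P153.Planar.Basic

/-! P153, module NU: positive contractions. -/

open Set Filter Topology

noncomputable section
namespace Vale.Agent.P153.Nu

namespace Abs

theorem anti {b : ℕ → ℝ} {C : ℝ} (h : ∀ t, 0 ≤ b t - 2 * b (t + 1) + b (t + 2))
    (hC : ∀ t, b t ≤ C) (t : ℕ) : b (t + 1) ≤ b t := by
  by_contra hlt
  have hd : 0 < b (t + 1) - b t := by linarith [not_le.1 hlt]
  have key : ∀ k : ℕ, b (t + 1) - b t ≤ b (t + k + 1) - b (t + k) ∧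
      b t + k * (b (t + 1) - b t) ≤ b (t + k) := by
    intro k
    induction k with
    | zero => simp
    | succ k ih =>
      have := h (t + k)
      rw [← add_assoc]
      push_cast
      exact ⟨by linarith [ih.1], by linarith [ih.1, ih.2]⟩
  obtain ⟨k, hk⟩ := exists_nat_gt ((C - b t) / (b (t + 1) - b t))
  rw [div_lt_iff₀ hd] at hk
  linarith [(key k).2, hC (t + k)]

variable {W : Type} [AddCommGroup W] [Module ℝ W] {β : W →ₗ[ℝ] W →ₗ[ℝ] ℝ} {T : W →ₗ[ℝ] W}

theorem pos (h0 : ∀ f, 0 ≤ β f f) (hT : ∀ f g, β (T f) g = β f (T g)) (h1 : ∀ f, 0 ≤ β (T f) f)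
    (t : ℕ) : (∀ f, 0 ≤ β ((T ^ t) f) f) ∧ ∀ f, 0 ≤ β ((T ^ (t + 1)) f) f := by
  induction t with
  | zero => exact ⟨by simpa using h0, by simpa using h1⟩
  | succ t ih =>
    refine ⟨ih.2, fun f => ?_⟩
    rw [pow_succ', Module.End.mul_apply, hT, pow_succ, Module.End.mul_apply]
    exact ih.1 _

theorem contr (h0 : ∀ f, 0 ≤ β f f) (hT : ∀ f g, β (T f) g = β f (T g))
    (h1 : ∀ f, 0 ≤ β (T f) f) (hb : ∀ f, ∃ C, ∀ t : ℕ, β ((T ^ t) f) f ≤ C) (f : W) :
    β (T f) (T f) ≤ β (T f) f ∧ β (T f) f ≤ β f f := by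
  obtain ⟨C, hC⟩ := hb f
  have e : ∀ t : ℕ, β ((T ^ t) f) (T f) = β ((T ^ (t + 1)) f) f := fun t => by
    rw [← hT, pow_succ', Module.End.mul_apply]
  have h := anti (b := fun t => β ((T ^ t) f) f) (fun t => by
    have h2 := (pos h0 hT h1 t).1 (f - T f)
    rw [map_sub (T ^ t), ← Module.End.mul_apply, ← pow_succ] at h2
    simp only [map_sub, LinearMap.sub_apply, e] at h2
    linarith) hC
  have h2 := h 0
  have h3 := h 1
  rw [← e] at h3
  exact ⟨by simpa using h3, by simpa using h2⟩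

end Abs

theorem s_abs : S_abs := by
  intro W _ _ β T hs h0 hT h1 hb f g j m
  have hc := Abs.contr h0 hT h1 hb
  have a1 : ∀ h, β (T h) (T h) ≤ β h h := fun h => (hc h).1.trans (hc h).2
  have a2 : ∀ h, β ((1 - T) h) ((1 - T) h) ≤ β h h - β (T h) (T h) := fun h => by
    simp only [LinearMap.sub_apply, Module.End.one_apply, map_sub, hs h (T h)]
    linarith [(hc h).1]
  have a3 : ∀ (k : ℕ) h, β ((T ^ (k + 1)) h) ((T ^ (k + 1)) h) ≤ β (T h) (T h) := by
    intro k h
    induction k with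
    | zero => simp
    | succ k ih =>
      rw [pow_succ', Module.End.mul_apply]
      exact (a1 _).trans ih
  have a4 : ∀ k : ℕ, (k + 1) * β (T (((1 - T) ^ k) f)) (T (((1 - T) ^ k) f)) +
      β (((1 - T) ^ (k + 1)) f) (((1 - T) ^ (k + 1)) f) ≤ β f f := by
    intro k
    induction k with
    | zero =>
      have := a2 f
      simp only [Nat.cast_zero, zero_add, pow_zero, pow_one, Module.End.one_apply, one_mul]
      linarith
    | succ k ih =>
      have b1 := a2 (((1 - T) ^ (k + 1)) f)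
      rw [← Module.End.mul_apply, ← pow_succ'] at b1
      have b2 := a2 (T (((1 - T) ^ k) f))
      have e : (1 - T) (T (((1 - T) ^ k) f)) = T (((1 - T) ^ (k + 1)) f) := by
        simp only [pow_succ', Module.End.mul_apply, LinearMap.sub_apply, Module.End.one_apply,
          map_sub]
      rw [e] at b2
      have b3 := h0 (T (T (((1 - T) ^ k) f)))
      have b4 : (k + 1 : ℝ) * β (T (((1 - T) ^ (k + 1)) f)) (T (((1 - T) ^ (k + 1)) f)) ≤
          (k + 1) * β (T (((1 - T) ^ k) f)) (T (((1 - T) ^ k) f)) :=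
        mul_le_mul_of_nonneg_left (by linarith) (by positivity)
      push_cast
      linarith
  have hm : (0 : ℝ) < m + 1 := by positivity
  have a5 : β ((T ^ (j + 1) * (1 - T) ^ m) f) ((T ^ (j + 1) * (1 - T) ^ m) f) ≤
      β f f / (m + 1) := by
    rw [Module.End.mul_apply, le_div_iff₀' hm]
    have := mul_le_mul_of_nonneg_left (a3 j (((1 - T) ^ m) f)) hm.le
    linarith [a4 m, h0 (((1 - T) ^ (m + 1)) f)]
  refine (LinearMap.BilinForm.apply_sq_le_of_symm β h0 ⟨fun x y => hs x y⟩ _ g).trans ?_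
  rw [mul_div_right_comm]
  exact mul_le_mul_of_nonneg_right a5 (h0 g)

end Vale.Agent.P153.Nu
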