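import Vale.Agent.P153.Nu.Stm
import Vale.Agent.P153.FKG.Basic
import Vale.Agent.P153.Planar.Basic

/-! P153, module NU: the data for the spectral argument. -/

open Set Filter Topology

noncomputable section
namespace Vale.Agent.P153.Nu

namespace Data

theorem loc_sq (l : S_loc) (x y : V) : Loc fun H => ((H x : ℝ) - H y) ^ 2 := by
  simp only [pow_two]
  exact l.mul _ _ (l.dif x y) (l.dif x y)

theorem sym (l : S_loc) (n : S_nu) {g : V ≃ V} (hg : IsSym g) (h0 : g 0 = 0) (x : V) :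
    Vf (g x) = Vf x := by
  have := n.sym g _ hg (loc_sq l x 0)
  unfold act at this
  simp only [h0] at this
  exact this

theorem dif (l : S_loc) (n : S_nu) (x y : V) :
    nu (fun H => ((H x : ℝ) - H y) ^ 2) = Vf (x - y) := by
  have := n.sh y _ (loc_sq l (x - y) 0)
  unfold sh at this
  simp only [sub_add_cancel, zero_add] at this
  exact this

theorem rf0 (y : V) : rf 0 y = P153.Spec.R0 y := by
  simp [rf, P153.Spec.R0]

theorem alg {ι : Type} (S : Finset ι) (a u v : ι → ℝ) (h : ∑ x ∈ S, a x = 0) :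
    ∑ x ∈ S, ∑ y ∈ S, a x * a y * (u x - v y) ^ 2 =
      -2 * ((∑ x ∈ S, a x * u x) * ∑ y ∈ S, a y * v y) := by
  have e : ∑ x ∈ S, ∑ y ∈ S, a x * a y * (u x - v y) ^ 2 =
      (∑ x ∈ S, a x * u x ^ 2) * (∑ y ∈ S, a y) + (∑ x ∈ S, a x) * (∑ y ∈ S, a y * v y ^ 2) +
        -2 * ((∑ x ∈ S, a x * u x) * ∑ y ∈ S, a y * v y) := by
    simp only [Finset.sum_mul_sum]
    simp only [Finset.mul_sum, ← Finset.sum_add_distrib]
    exact Finset.sum_congr rfl fun x _ => Finset.sum_congr rfl fun y _ => by ring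
  rw [e, h, mul_zero, zero_mul, zero_add, zero_add]

end Data

open Data in
theorem s_data (vs : VSub) (l : S_loc) (n : S_nu) : S_data := by
  refine ⟨?_, fun i j => sym l n isSym_rot rfl (i, j), fun i j => ?_, fun ε hε => ?_,
    fun S a hS h0 => ?_⟩
  · exact (n.congr _ (fun _ => 0) fun H _ => by simp [show ((0, 0) : V) = 0 from rfl]).trans
      (n.const 0)
  · have := sym l n (isSym_rf 0) rfl (i, j)
    rwa [rf0] at this
  · obtain ⟨C, hC⟩ := vs ε hε
    refine ⟨C, fun i j => ?_⟩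
    have h1 : 0 ≤ Vf (i, j) := (n.const 0).symm.le.trans
      (n.mono _ _ (l.const 0) (loc_sq l _ _) fun H _ => sq_nonneg _)
    have h2 : Vf (i, j) ≤ C + ε * nrm (i, j) :=
      le_of_tendsto (n.tend _ (loc_sq l _ _)) (hC (i, j))
    have h3 : (nrm (i, j) : ℤ) ≤ |i| + |j| := by
      simp only [nrm, Int.abs_eq_natAbs]
      omega
    have h4 : (nrm (i, j) : ℝ) ≤ |(i : ℝ)| + |(j : ℝ)| := by exact_mod_cast h3
    rw [abs_of_nonneg h1]
    exact h2.trans (by gcongr)
  · have lF := (n.sum _ S (fun x H => a x * ((H x : ℝ) - H 0))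
      fun x _ => l.mul _ _ (l.const _) (l.dif x 0)).1
    have r := n.rp 0 _ lF fun H H' h => Finset.sum_congr rfl fun x hx => by
      rw [h x (hS x hx), h 0 (le_refl (0 : ℤ))]
    have s1 := fun x : V => n.sum _ S
      (fun y H => a x * a y * ((H x : ℝ) - H (P153.Spec.R0 y)) ^ 2)
      fun y _ => l.mul _ _ (l.const _) (loc_sq l _ _)
    have s2 := (n.sum _ S _ fun x _ => (s1 x).1).2
    simp only [fun x => (s1 x).2, n.smul _ _ (loc_sq l _ _), dif l n] at s2
    rw [← s2, n.congr _ _ fun H _ => ?_,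
      n.smul (-2) _ (l.mul _ _ lF (l.act _ _ (isSym_rf 0) lF))]
    · linarith
    · have := alg S a (fun x => (H x : ℝ) - H 0) (fun y => (H (P153.Spec.R0 y) : ℝ) - H 0) h0
      simp only [sub_sub_sub_cancel_right] at this
      simp only [act, rf0, show P153.Spec.R0 0 = 0 from rfl]
      exact this

end Vale.Agent.P153.Nu
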