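import Vale.Agent.P153.Core
import Vale.Agent.P153.Spec.Defs

/-! P153, module NU: the infinite volume functional. Definitions. -/

open Set Filter Topology

noncomputable section
namespace Vale.Agent.P153

/-- Local observables: finite dependence, invariant under the shift by `4`, bounded. -/
def Loc (f : Cfg → ℝ) : Prop :=
  (∃ r, DepOn f (hex 0 r)) ∧ Inv4 f ∧ ∃ C, ∀ H, Lip H → |f H| ≤ C

/-- The observable transported by `g` (if `f` depends on `A`, `act g f` depends on `g '' A`). -/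
def Nu.act (g : V → V) (f : Cfg → ℝ) : Cfg → ℝ := fun H => f fun x => H (g x)

/-- The observable moved by the vector `w`. -/
def sh (w : V) (f : Cfg → ℝ) : Cfg → ℝ := fun H => f fun x => H (x + w)

/-- The infinite volume functional. -/
def nu (f : Cfg → ℝ) : ℝ := limUnder atTop fun N : ℕ => Ex (free (hex 0 N) 0) f

/-- The variance function. -/
def Vf (x : V) : ℝ := nu fun H => ((H x : ℝ) - H 0) ^ 2

/-- Observables bounded by one that depend on `A`. -/
def Pc (A : Set V) (Φ : Cfg → ℝ) : Prop := DepOn Φ A ∧ Inv4 Φ ∧ ∀ H, Lip H → |Φ H| ≤ 1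

/-- Top piece. -/
def pT (s u R : ℕ) : Set V := {x | x ∈ hex 0 R ∧ (s : ℤ) + 2 * u ≤ x.2}

/-- Bottom piece. -/
def pB (s u R : ℕ) : Set V := {x | x ∈ hex 0 R ∧ x.2 ≤ -((s : ℤ) + 2 * u)}

/-- Left piece. -/
def pL (s w R : ℕ) : Set V := {x | x ∈ hex 0 R ∧ x.2.natAbs ≤ s ∧ 2 * x.1 + x.2 ≤ -(w : ℤ)}

/-- Right piece. -/
def pR (s w R : ℕ) : Set V := {x | x ∈ hex 0 R ∧ x.2.natAbs ≤ s ∧ (w : ℤ) ≤ 2 * x.1 + x.2}

end Vale.Agent.P153
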