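import Vale.Agent.P153.Nu.Stm
import Vale.Agent.P153.FKG.Basic
import Vale.Agent.P153.Planar.Basic

/-! P153, module NU: the infinite volume functional. -/

open Set Filter Topology

noncomputable section
namespace Vale.Agent.P153.Nu

namespace Fun

theorem good (a : V) (N : ℕ) : Good (free (hex a N) 0) := by
  refine ⟨?_, fun _ => 0, fun _ _ _ => by simp, fun _ _ => rfl, fun _ _ => Or.inl rfl⟩
  have : Finite (hex a N) := hex_finite a N
  refine Finite.of_finite_image (f := fun H (x : hex a N) => H x) ((Finite.pi'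
    fun _ : hex a N => finite_Icc (-(2 * N + 1) : ℤ) (2 * N + 1)).subset ?_) ?_
  · rintro _ ⟨H, hH, rfl⟩ x
    have h0 : H (a + ((N : ℤ) + 1, 0)) = 0 := hH.2.1 _ (by
      rw [mem_hex, nrm_sub_le_iff]; simp only [Prod.fst_add]; omega)
    have h1 := lip_nrm hH.1 x (a + ((N : ℤ) + 1, 0))
    have h2 : nrm (a + ((N : ℤ) + 1, 0) - x.1) ≤ 2 * N + 1 := by
      have := nrm_sub_le_iff.1 (mem_hex.1 x.2)
      rw [nrm_sub_le_iff]; simp only [Prod.fst_add, Prod.snd_add]; omega
    rw [h0, sub_zero] at h1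
    exact abs_le.1 (h1.trans (by exact_mod_cast h2))
  · intro H hH H' hH' e
    funext x
    by_cases hx : x ∈ hex a N
    · exact congrFun e ⟨x, hx⟩
    · rw [hH.2.1 x hx, hH'.2.1 x hx]

theorem maps {g : V ≃ V} (hg : IsSym g) (a : V) (N : ℕ) :
    MapsTo (fun (H : Cfg) x => H (g x)) (free (hex (g a) N) 0) (free (hex a N) 0) :=
  fun _ hH => ⟨fun x y h => hH.1 _ _ ((hg x y).2 h),
    fun x hx => hH.2.1 _ (by rwa [mem_hex, hg.nrm_eq]),
    fun x hx => hH.2.2 _ (by rw [mem_ibd_hex, hg.nrm_eq]; exact mem_ibd_hex.1 hx)⟩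

theorem bij {g : V ≃ V} (hg : IsSym g) (a : V) (N : ℕ) :
    BijOn (fun (H : Cfg) x => H (g x)) (free (hex (g a) N) 0) (free (hex a N) 0) := by
  have h := maps hg.symm (g a) N
  rw [g.symm_apply_apply] at h
  exact InvOn.bijOn (f' := fun (H : Cfg) x => H (g.symm x))
    ⟨fun H _ => by simp, fun H _ => by simp⟩ (maps hg a N) h

theorem tv' (tv : TVI) {f : Cfg → ℝ} (hf : Loc f) {ε : ℝ} (hε : 0 < ε) : ∃ R : ℕ, ∀ (a b : V)
    (N N' : ℕ), nrm a + R ≤ N → nrm b + R ≤ N' →
      |Ex (free (hex a N) 0) f - Ex (free (hex b N') 0) f| ≤ ε := by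
  obtain ⟨⟨r, h1⟩, h2, C, h3⟩ := hf
  have hC : 0 < |C| + 1 := by positivity
  obtain ⟨R, hR⟩ := tv r (ε / (|C| + 1)) (by positivity)
  refine ⟨R, fun a b N N' ha hb => ?_⟩
  have := hR a b N N' (hex_subset (by rwa [zero_sub, nrm_neg]))
    (hex_subset (by rwa [zero_sub, nrm_neg])) (fun H => f H / (|C| + 1))
    ⟨fun H H' h => by simp only [h1 H H' h], fun H => by simp only [h2 H], fun H hH => by
      rw [abs_div, abs_of_pos hC, div_le_one hC]; linarith [h3 H hH, le_abs_self C]⟩
  rwa [Ex_div, Ex_div, ← sub_div, abs_div, abs_of_pos hC, div_le_div_iff_of_pos_right hC] at this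

theorem tend (tv : TVI) {f : Cfg → ℝ} (hf : Loc f) :
    Tendsto (fun N : ℕ => Ex (free (hex 0 N) 0) f) atTop (𝓝 (nu f)) := by
  refine CauchySeq.tendsto_limUnder (Metric.cauchySeq_iff.2 fun ε hε => ?_)
  obtain ⟨R, hR⟩ := tv' tv hf (half_pos hε)
  exact ⟨R, fun m hm n hn => (hR 0 0 m n (by simpa) (by simpa)).trans_lt (half_lt_self hε)⟩

theorem tend' (tv : TVI) (a : V) {f : Cfg → ℝ} (hf : Loc f) :
    Tendsto (fun N : ℕ => Ex (free (hex a N) 0) f) atTop (𝓝 (nu f)) := by
  refine (tend tv hf).congr_dist (Metric.tendsto_atTop.2 fun ε hε => ?_)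
  obtain ⟨R, hR⟩ := tv' tv hf (half_pos hε)
  refine ⟨nrm a + R, fun N hN => ?_⟩
  rw [Real.dist_0_eq_abs, abs_of_nonneg dist_nonneg]
  exact (hR 0 a N N (by rw [nrm_zero]; omega) hN).trans_lt (half_lt_self hε)

open Classical in
/-- The flip inside `U`. -/
def fl (U : Set V) (H : Cfg) : Cfg := fun x => if x ∈ U then 1 - H x else 0

theorem fl_bij (U : Set V) : BijOn (fl U) (free U 0) (free U 0) := by
  have m : MapsTo (fl U) (free U 0) (free U 0) := fun H hH => by
    have k : ∀ x y, Adj x y → x ∈ U → y ∉ U → |fl U H x - fl U H y| ≤ 1 := fun x y h hx hy => by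
      rcases hH.2.2 x ⟨hx, y, hy, h⟩ with e | e <;> simp [fl, hx, hy, e]
    refine ⟨fun x y h => ?_, fun x hx => if_neg hx, fun x hx => ?_⟩
    · by_cases hx : x ∈ U <;> by_cases hy : y ∈ U
      · simp only [fl, hx, hy, if_true, sub_sub_sub_cancel_left]
        exact hH.1 y x h.symm
      · exact k x y h hx hy
      · rw [abs_sub_comm]; exact k y x h.symm hy hx
      · simp [fl, hx, hy]
    · rcases hH.2.2 x hx with e | e <;> simp [fl, hx.1, e]
  have i : ∀ H ∈ free U 0, fl U (fl U H) = H := fun H hH => funext fun x => by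
    by_cases hx : x ∈ U
    · simp [fl, hx]
    · simp [fl, hx, hH.2.1 x hx]
  exact InvOn.bijOn ⟨i, i⟩ m m

theorem rf_rf (y : ℤ) (x : V) : rf y (rf y x) = x := (rf y).left_inv x

end Fun

open Fun in
theorem s_nu (tv : TVI) (l : S_loc) (r : S_rp0) : S_nu := by
  have cg : ∀ f g : Cfg → ℝ, (∀ H, Lip H → f H = g H) → nu f = nu g := fun f g h => by
    unfold nu
    congr 1
    exact funext fun N => Ex_congr fun H hH => h H hH.1
  have cn : ∀ c : ℝ, nu (fun _ => c) = c := fun c =>
    tendsto_nhds_unique (tend tv (l.const c)) (by simp only [Ex_const (good _ _)]; simp)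
  have ad : ∀ f g, Loc f → Loc g → nu (fun H => f H + g H) = nu f + nu g := fun f g hf hg =>
    tendsto_nhds_unique (tend tv (l.add f g hf hg))
      (by simp only [Ex_add]; exact (tend tv hf).add (tend tv hg))
  have sm : ∀ (c : ℝ) f, Loc f → nu (fun H => c * f H) = c * nu f := fun c f hf =>
    tendsto_nhds_unique (tend tv (l.mul _ f (l.const c) hf))
      (by simp only [Ex_mul_left]; exact (tend tv hf).const_mul c)
  have sy : ∀ (g : V ≃ V) f, IsSym g → Loc f → nu (act g f) = nu f := fun g f hg hf =>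
    tendsto_nhds_unique (tend' tv (g 0) (l.act g f hg hf))
      ((tend tv hf).congr fun N => (Ex_bij (bij hg 0 N) f).symm)
  have rp : ∀ (y : ℤ) f, Loc f → DepOn f {x | y ≤ x.2} →
      0 ≤ nu fun H => f H * act (rf y) f H := fun y f hf hd => by
    have h1 := l.sh (0, -y) f hf
    have e : (fun H => sh (0, -y) f H * act (rf 0) (sh (0, -y) f) H) =
        act (tr (0, -y)) fun H => f H * act (rf y) f H := by
      funext H
      simp only [act, sh, tr, Equiv.coe_addRight]
      congr 3
      funext x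
      congr 1
      simp only [rf, Equiv.coe_fn_mk, Prod.fst_add, Prod.snd_add, Prod.mk_add_mk, Prod.mk.injEq]
      omega
    rw [← sy _ _ (isSym_tr (0, -y)) (l.mul _ _ hf (l.act _ _ (isSym_rf y) hf)), ← e]
    refine ge_of_tendsto' (tend tv (l.mul _ _ h1 (l.act _ _ (isSym_rf 0) h1))) fun N => r N _ ?_
    exact fun H H' h => hd _ _ fun x hx => h _ (by
      simp only [mem_ofPred_eq, Prod.snd_add] at hx ⊢; omega)
  refine ⟨fun f => tend tv, fun a f => tend' tv a, cg, cn, ad, fun f g hf hg => ?_, sm,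
    fun ι s F h => ?_, fun f g hf hg h => ?_, fun f g hf hg => ?_,
    fun w f hf => sy (tr w) f (isSym_tr w) hf, sy, fun f hf => ?_, rp, fun y f g hf hg df dg => ?_⟩
  · exact tendsto_nhds_unique (tend tv (l.sub f g hf hg))
      (by simp only [Ex_sub]; exact (tend tv hf).sub (tend tv hg))
  · classical
    induction s using Finset.induction_on with
    | empty => simpa using ⟨l.const 0, cn 0⟩
    | insert i s hi ih =>
      have h1 := h i (Finset.mem_insert_self i s)
      obtain ⟨h2, h3⟩ := ih fun j hj => h j (Finset.mem_insert_of_mem hj)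
      simp only [Finset.sum_insert hi]
      exact ⟨l.add _ _ h1 h2, by rw [ad _ _ h1 h2, h3]⟩
  · exact le_of_tendsto_of_tendsto' (tend tv hf) (tend tv hg) fun N =>
      Ex_mono fun H hH => h H hH.1
  · have h1 := tend tv (l.mul f f hf hf)
    have h2 := tend tv (l.mul g g hg hg)
    simp only [← sq] at h1 h2
    exact le_of_tendsto_of_tendsto' ((tend tv (l.mul f g hf hg)).pow 2) (h1.mul h2) fun N =>
      Ex_mul_sq_le _ f g
  · obtain ⟨⟨ρ, h1⟩, h2, C, h3⟩ := id hf
    have h : Loc fun H => f fun x => 1 - H x := by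
      refine ⟨⟨ρ, fun H H' h => h1 _ _ fun x hx => by rw [h x hx]⟩, fun H => ?_, C,
        fun H hH => h3 _ fun x y a => ?_⟩
      · refine (h2 _).symm.trans (congrArg f (funext fun x => ?_))
        ring
      · rw [sub_sub_sub_cancel_left]; exact hH y x a.symm
    refine ⟨h, tendsto_nhds_unique (tend tv h) ((tend tv hf).congr' ?_)⟩
    filter_upwards [eventually_ge_atTop ρ] with N hN
    rw [← Ex_bij (fl_bij _) f]
    exact Ex_congr fun H _ => h1 _ _ fun x hx => if_pos (hex_mono hN hx)
  · have hg' := l.act _ g (isSym_rf y) hg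
    have hf' := l.act _ f (isSym_rf y) hf
    have dg' : DepOn (act (rf y) g) {x | y ≤ x.2} := fun H H' h => dg _ _ fun x hx => h _ (by
      simp only [mem_ofPred_eq, rf, Equiv.coe_fn_mk] at hx ⊢; omega)
    have ii : act (rf y) (act (rf y) g) = g := by
      funext H; simp only [act, rf_rf]
    have e1 : nu (fun H => act (rf y) f H * act (rf y) g H) = nu fun H => f H * g H :=
      sy _ _ (isSym_rf y) (l.mul f g hf hg)
    have := discrim_le_zero (a := nu fun H => f H * act (rf y) f H)
      (b := 2 * nu fun H => f H * g H) (c := nu fun H => g H * act (rf y) g H) fun t => by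
        have h := rp y (fun H => t * f H + act (rf y) g H)
          (l.add _ _ (l.mul _ _ (l.const t) hf) hg') fun H H' h => by
            simp only [df H H' h, dg' H H' h]
        have e : (fun H => (t * f H + act (rf y) g H) *
            act (rf y) (fun H => t * f H + act (rf y) g H) H) = fun H =>
            (t * t * (f H * act (rf y) f H) + t * (f H * g H)) +
              (t * (act (rf y) f H * act (rf y) g H) + g H * act (rf y) g H) := by
          funext H
          change _ * (t * act (rf y) f H + act (rf y) (act (rf y) g) H) = _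
          rw [ii]; ring
        have m1 := l.mul _ _ hf hf'
        have m2 := l.mul _ _ hf hg
        have m3 := l.mul _ _ hf' hg'
        have m4 := l.mul _ _ hg hg'
        have n1 := l.mul _ _ (l.const (t * t)) m1
        have n2 := l.mul _ _ (l.const t) m2
        have n3 := l.mul _ _ (l.const t) m3
        rw [e, ad _ _ (l.add _ _ n1 n2) (l.add _ _ n3 m4), ad _ _ n1 n2, ad _ _ n3 m4, sm _ _ m1,
          sm _ _ m2, sm _ _ m3, e1] at h
        linarith
    rw [discrim] at this
    linarith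

end Vale.Agent.P153.Nu
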