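import Vale.Agent.P153.Nu.Stm
import Vale.Agent.P153.FKG.Basic
import Vale.Agent.P153.Planar.Basic

/-! P153, module NU: the discrete Laplacian of a test function. -/

open Set Filter Topology

noncomputable section
namespace Vale.Agent.P153.Nu

namespace Lap

open P153.Spec

theorem pos_add (x y : V) : pos (x + y) = pos x + pos y := by
  apply Complex.ext <;> simp [pos] <;> ring

theorem fin_supp {φ : ℂ → ℝ} (hc : HasCompactSupport φ) {δ : ℝ} (hδ : 0 < δ) (c : ℂ) :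
    {y : V | φ (δ * pos y + c) ≠ 0}.Finite := by
  obtain ⟨R, hR⟩ := hc.isCompact.isBounded.subset_closedBall 0
  obtain ⟨M, hM⟩ := exists_nat_ge (2 * ((R + ‖c‖) / δ))
  refine ((finite_Icc (-(M : ℤ)) M).prod (finite_Icc (-(M : ℤ)) M)).subset fun y hy => ?_
  have h1 : ‖δ * pos y + c‖ ≤ R := by simpa using hR (subset_tsupport φ hy)
  have h2 : ‖pos y‖ ≤ (R + ‖c‖) / δ := by
    rw [le_div_iff₀ hδ]
    have h3 := norm_sub_le (δ * pos y + c) c
    rw [add_sub_cancel_right, norm_mul, Complex.norm_real, Real.norm_of_nonneg hδ.le] at h3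
    linarith
  have h3 := abs_le.1 ((Complex.abs_re_le_norm (pos y)).trans h2)
  have h4 := (Complex.abs_im_le_norm (pos y)).trans h2
  have h5 : (1 : ℝ) ≤ √3 := Real.one_le_sqrt.2 (by norm_num)
  simp only [pos] at h3 h4
  rw [abs_div, abs_mul, abs_of_nonneg (Real.sqrt_nonneg 3), abs_two] at h4
  have h6 : |(y.2 : ℝ)| ≤ 2 * ((R + ‖c‖) / δ) := by nlinarith [abs_nonneg (y.2 : ℝ)]
  have h7 := abs_le.1 h6
  have e1 : (-(M : ℝ)) ≤ y.1 ∧ (y.1 : ℝ) ≤ M := ⟨by linarith [h3.1, h7.2], by linarith [h3.2, h7.1]⟩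
  have e2 : (-(M : ℝ)) ≤ y.2 ∧ (y.2 : ℝ) ≤ M := ⟨by linarith [h7.1], by linarith [h7.2]⟩
  exact ⟨⟨by exact_mod_cast e1.1, by exact_mod_cast e1.2⟩,
    by exact_mod_cast e2.1, by exact_mod_cast e2.2⟩

theorem lap_eq (f g : V → ℝ) (hg : ∀ x, g x = if Even x.2 then f x else 0) (x : V) :
    lap f x = (g (x + (-1, 2)) + g (x + (1, -2)) - 2 * g x) / 3 +
      (g (x + (1, 0)) + g (x + (-1, 0)) - 2 * g x) := by
  obtain ⟨i, j⟩ := x
  have e1 : Even (j + 2) ↔ Even j := by simp [Int.even_add]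
  have e2 : Even (j - 2) ↔ Even j := by simp [Int.even_sub]
  simp only [lap, hg, Prod.mk_add_mk, add_zero, ← sub_eq_add_neg, e1, e2]
  split_ifs <;> simp

theorem zero_sum {f : V → ℝ} (hf : {y | f y ≠ 0}.Finite) (a : V →₀ ℝ) (ha : ∀ x, a x = lap f x) :
    (a.sum fun _ c => c) = 0 := by
  obtain ⟨g, hg⟩ : ∃ g : V → ℝ, ∀ x, g x = if Even x.2 then f x else 0 := ⟨_, fun _ => rfl⟩
  obtain ⟨s, hs⟩ : Summable g := summable_of_hasFiniteSupport (hf.subset fun x hx => by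
    intro h
    exact hx (by rw [hg, h, ite_self]))
  have h1 : ∀ v : V, HasSum (fun x => g (x + v)) s := fun v =>
    (Equiv.addRight v).hasSum_iff.2 hs
  have h2 := ((((h1 (-1, 2)).add (h1 (1, -2))).sub (hs.mul_left 2)).div_const 3).add
    (((h1 (1, 0)).add (h1 (-1, 0))).sub (hs.mul_left 2))
  have h3 : HasSum a (∑ x ∈ a.support, a x) :=
    hasSum_sum_of_ne_finset_zero fun x hx => Finsupp.notMem_support_iff.1 hx
  simp only [← lap_eq f g hg, ← ha] at h2
  rw [Finsupp.sum, h3.unique h2]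
  ring

theorem second {φ : ℂ → ℝ} (h : ContDiff ℝ 4 φ) (hc : HasCompactSupport φ) :
    ∃ M : ℝ, 0 ≤ M ∧ ∀ z w : ℂ, |φ (z + w) + φ (z - w) - 2 * φ z| ≤ M * ‖w‖ ^ 2 := by
  obtain ⟨L, hL⟩ := ContDiff.lipschitzWith_of_hasCompactSupport (hc.fderiv ℝ)
    (h.fderiv_right (m := 1) (by norm_num)) (by norm_num)
  have hd : Differentiable ℝ φ := h.differentiable (by norm_num)
  refine ⟨L, L.2, fun z w => ?_⟩
  have h1 : ∀ u, HasFDerivAt (fun u => φ (u + w) - φ u) (fderiv ℝ φ (u + w) - fderiv ℝ φ u) u :=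
    fun u => ((hasFDerivAt_comp_add_right w).2 (hd (u + w)).hasFDerivAt).sub (hd u).hasFDerivAt
  have h2 := convex_univ.norm_image_sub_le_of_norm_hasFDerivWithin_le (C := L * ‖w‖)
    (fun u _ => (h1 u).hasFDerivWithinAt) (fun u _ => by
      simpa [dist_eq_norm] using hL.dist_le_mul (u + w) u) (mem_univ (z - w)) (mem_univ z)
  simp only [sub_add_cancel, sub_sub_cancel, Real.norm_eq_abs] at h2
  calc |φ (z + w) + φ (z - w) - 2 * φ z| = |φ (z + w) - φ z - (φ z - φ (z - w))| := by ring_nf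
    _ ≤ L * ‖w‖ * ‖w‖ := h2
    _ = L * ‖w‖ ^ 2 := by ring

theorem lap_le {φ : ℂ → ℝ} {M : ℝ} (hM : 0 ≤ M)
    (h : ∀ z w : ℂ, |φ (z + w) + φ (z - w) - 2 * φ z| ≤ M * ‖w‖ ^ 2) (δ : ℝ) (c : ℂ) (x : V) :
    |lap (fun y => φ (δ * pos y + c)) x| ≤ (2 * M + 1) * δ ^ 2 := by
  have h1 := h (δ * pos x + c) (δ * (√3 * Complex.I))
  have h2 := h (δ * pos x + c) δ
  have f1 : pos (x.1 - 1, x.2 + 2) = pos x + √3 * Complex.I := by
    apply Complex.ext <;> simp [pos] <;> ring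
  have f2 : pos (x.1 + 1, x.2 - 2) = pos x - √3 * Complex.I := by
    apply Complex.ext <;> simp [pos] <;> ring
  have f3 : pos (x.1 + 1, x.2) = pos x + 1 := by
    apply Complex.ext <;> simp [pos] <;> ring
  have f4 : pos (x.1 - 1, x.2) = pos x - 1 := by
    apply Complex.ext <;> simp [pos] <;> ring
  have e1 : (δ * pos (x.1 - 1, x.2 + 2) + c : ℂ) = δ * pos x + c + δ * (√3 * Complex.I) := by
    rw [f1]; ring
  have e2 : (δ * pos (x.1 + 1, x.2 - 2) + c : ℂ) = δ * pos x + c - δ * (√3 * Complex.I) := by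
    rw [f2]; ring
  have e3 : (δ * pos (x.1 + 1, x.2) + c : ℂ) = δ * pos x + c + δ := by
    rw [f3]; ring
  have e4 : (δ * pos (x.1 - 1, x.2) + c : ℂ) = δ * pos x + c - δ := by
    rw [f4]; ring
  have n1 : ‖(δ * (√3 * Complex.I) : ℂ)‖ ^ 2 = 3 * δ ^ 2 := by
    simp [mul_pow, mul_comm]
  have n2 : ‖(δ : ℂ)‖ ^ 2 = δ ^ 2 := by simp
  rw [n1] at h1
  rw [n2] at h2
  have p : 0 ≤ δ ^ 2 := sq_nonneg δ
  unfold lap
  split_ifs
  · simp only [e1, e2, e3, e4]
    rw [abs_le] at h1 h2 ⊢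
    constructor <;> nlinarith [h1.1, h1.2, h2.1, h2.2]
  · rw [abs_zero]
    positivity

theorem lin_smul (t : ℝ) (a : V →₀ ℝ) (H : Cfg) : lin (t • a) H = t * lin a H := by
  unfold lin
  rw [Finsupp.sum_smul_index' (by simp), Finsupp.mul_sum]
  simp only [smul_eq_mul, mul_assoc]

theorem mom (l : S_loc) (n : S_nu) {C : ℝ}
    (hC : ∀ (r : ℕ) (a : V →₀ ℝ), (∀ x ∈ a.support, x ∈ hex 0 r) → (∀ x, |a x| ≤ 1) →
      (a.sum fun _ c => c) = 0 → ∀ᶠ N : ℕ in atTop,
        Ex (free (hex 0 N) 0) (fun H => lin a H ^ 2) ≤ C * (r : ℝ) ^ 4)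
    {t : ℝ} (ht : 0 < t) (r : ℕ) (a : V →₀ ℝ) (h1 : ∀ x ∈ a.support, x ∈ hex 0 r)
    (h2 : ∀ x, |a x| ≤ t) (h3 : (a.sum fun _ c => c) = 0) :
    nu (fun H => lin a H ^ 2) ≤ t ^ 2 * (C * (r : ℝ) ^ 4) := by
  have h4 := hC r (t⁻¹ • a) (fun x hx => h1 x (Finsupp.support_smul hx)) (fun x => by
    rw [Finsupp.smul_apply, smul_eq_mul, abs_mul, abs_of_pos (inv_pos.2 ht), inv_mul_le_iff₀ ht,
      mul_one]
    exact h2 x) (by
    rw [Finsupp.sum_smul_index' (by simp)]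
    simp only [smul_eq_mul]
    rw [← Finsupp.mul_sum, h3, mul_zero])
  have h5 : Loc fun H => lin a H ^ 2 := by
    simpa only [pow_two] using l.mul _ _ (l.lin a h3) (l.lin a h3)
  refine le_of_tendsto (n.tend _ h5) (h4.mono fun N hN => ?_)
  simp only [lin_smul, mul_pow, Ex_mul_left] at hN
  rwa [inv_pow, inv_mul_le_iff₀ (by positivity)] at hN

theorem nu_sq (l : S_loc) (n : S_nu) (x w : V) :
    Loc (fun H => ((H x : ℝ) - H w) ^ 2) ∧ nu (fun H => ((H x : ℝ) - H w) ^ 2) = Vf (x - w) := by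
  have h1 : ∀ x w : V, Loc fun H => ((H x : ℝ) - H w) ^ 2 := fun x w => by
    simpa only [pow_two] using l.mul _ _ (l.dif x w) (l.dif x w)
  refine ⟨h1 x w, ?_⟩
  rw [Vf, ← n.sh w _ (h1 (x - w) 0)]
  congr 1
  funext H
  simp only [sh, sub_add_cancel, zero_add]

theorem os (l : S_loc) (n : S_nu) (a : V →₀ ℝ) (h : (a.sum fun _ c => c) = 0) (g : V → V) :
    nu (fun H => lin a H * act g (lin a) H) =
      -(1 / 2) * ∑ x ∈ a.support, ∑ y ∈ a.support, a x * a y * Vf (x - g y) := by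
  have h0 : ∑ x ∈ a.support, a x = 0 := h
  have l1 : ∀ x y, Loc fun H => a x * a y * ((H x : ℝ) - H (g y)) ^ 2 := fun x y =>
    l.mul _ _ (l.const _) (nu_sq l n x (g y)).1
  have l2 := fun x => n.sum V a.support _ fun y _ => l1 x y
  have l3 := n.sum V a.support _ fun x _ => (l2 x).1
  have e : (fun H => lin a H * act g (lin a) H) = fun H => -(1 / 2) *
      ∑ x ∈ a.support, ∑ y ∈ a.support, a x * a y * ((H x : ℝ) - H (g y)) ^ 2 := by
    funext H
    have e1 : ∀ x y, a x * a y * ((H x : ℝ) - H (g y)) ^ 2 = a x * (H x : ℝ) ^ 2 * a y +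
        a x * (a y * (H (g y) : ℝ) ^ 2) - 2 * (a x * H x * (a y * H (g y))) := fun x y => by ring
    simp only [e1, Finset.sum_sub_distrib, Finset.sum_add_distrib, ← Finset.mul_sum,
      ← Finset.sum_mul, h0, act, lin, Finsupp.sum]
    ring
  rw [e, n.smul _ _ l3.1, l3.2]
  congr 1
  refine Finset.sum_congr rfl fun x _ => ?_
  rw [(l2 x).2]
  refine Finset.sum_congr rfl fun y _ => ?_
  rw [n.smul _ _ (nu_sq l n x (g y)).1, (nu_sq l n x (g y)).2]

theorem lap_shift (f : V → ℝ) (k : ℤ) (x : V) :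
    lap (fun y => f (y + (k, -(2 * k)))) x = lap f (x + (k, -(2 * k))) := by
  have e : Even (x.2 + -(2 * k)) ↔ Even x.2 := by simp [Int.even_add]
  obtain ⟨i, j⟩ := x
  simp only [lap, Prod.mk_add_mk, e] at *
  split_ifs
  · ring_nf
  · rfl

theorem pos_p (k : ℕ) : pos ((k : ℤ), -(2 * (k : ℤ))) = -((k * √3 : ℝ) : ℂ) * Complex.I := by
  apply Complex.ext <;> simp [pos] <;> ring

end Lap

open Lap P153.Spec in
theorem s_lap (m2 : M2) (h : Har) (l : S_loc) (n : S_nu) (d : S_data) : S_lap := by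
  intro φ h1 h2 δ c k B a hδ hδ0 hc hk hz ha hs
  have z : ∀ m, ((a m).sum fun _ c => c) = 0 := fun m =>
    zero_sum (fin_supp h2 (hδ m) (c m)) _ (ha m)
  obtain ⟨M, hM, hsec⟩ := second h1 h2
  obtain ⟨C, hC⟩ := m2
  refine ⟨z, ⟨(2 * M + 1) ^ 2 * (16 * |C| * B ^ 4), fun m => ?_⟩, ?_⟩
  · have p := hδ m
    refine (mom l n hC (t := (2 * M + 1) * δ m ^ 2) (by positivity) _ _ (hs m)
      (fun x => by rw [ha]; exact lap_le hM hsec _ _ x) (z m)).trans ?_
    have h3 : (δ m * k m) ^ 4 ≤ B ^ 4 := pow_le_pow_left₀ (by positivity) (hk m) 4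
    calc ((2 * M + 1) * δ m ^ 2) ^ 2 * (C * ((2 * k m : ℕ) : ℝ) ^ 4)
        = (2 * M + 1) ^ 2 * (16 * C * (δ m * k m) ^ 4) := by push_cast; ring
      _ ≤ (2 * M + 1) ^ 2 * (16 * |C| * (δ m * k m) ^ 4) := by gcongr; exact le_abs_self C
      _ ≤ _ := by gcongr
  · set p : ℕ → V := fun m => ((k m : ℤ), -(2 * (k m : ℤ))) with hp
    have e : ∀ m x, lap (fun y => φ (δ m * pos y + (c m + δ m * pos (p m)))) x = a m (x + p m) :=
      fun m x => by
        rw [ha, ← lap_shift]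
        congr 1
        funext y
        rw [pos_add]
        congr 1
        ring
    have h3 := h Vf d φ h1 h2 δ (fun m => c m + δ m * pos (p m)) (B + B * √3) hδ hδ0
      (fun m => ?_) (fun m w hw => ?_)
      (fun m => (a m).support.map (Equiv.subRight (p m)).toEmbedding) (fun m x hx => ?_)
    · refine h3.congr fun m => ?_
      rw [os l n _ (z m)]
      simp only [e, Finset.sum_map, Equiv.coe_toEmbedding, Equiv.subRight_apply, sub_add_cancel]
      congr 1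
      refine Finset.sum_congr rfl fun x _ => Finset.sum_congr rfl fun y _ => ?_
      congr 2
      ext <;> simp [rf, R0, hp] <;> ring
    · refine (norm_add_le _ _).trans (add_le_add (hc m) ?_)
      have := hk m
      rw [hp, pos_p, norm_mul, norm_mul, norm_neg, Complex.norm_I, Complex.norm_real,
        Complex.norm_real, Real.norm_of_nonneg (hδ m).le, Real.norm_of_nonneg (by positivity),
        mul_one, ← mul_assoc]
      gcongr
    · rw [show w + (c m + δ m * pos (p m)) = w + δ m * pos (p m) + c m by ring]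
      refine hz m _ ?_
      rw [hp, pos_p]
      simp
      nlinarith
    · rw [e] at hx
      exact Finset.mem_map.2 ⟨x + p m, Finsupp.mem_support_iff.2 hx, by simp⟩

end Vale.Agent.P153.Nu
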