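import Vale.Agent.P153.Nu.Stm
import Vale.Agent.P153.FKG.Basic
import Vale.Agent.P153.Planar.Basic

/-! P153, module NU: local observables. -/

open Set Filter Topology

noncomputable section
namespace Vale.Agent.P153.Nu

namespace Loc

theorem mk' {A : Set V} {f : Cfg → ℝ} (hA : A.Finite) (h : DepOn f A) (h4 : Inv4 f) {C : ℝ}
    (hC : ∀ H, Lip H → |f H| ≤ C) : Loc f := by
  obtain ⟨n, hn⟩ := exists_hex_of_finite hA 0
  exact ⟨⟨n, fun H H' e => h H H' fun x hx => e x (hn hx)⟩, h4, C, hC⟩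

theorem two {f g : Cfg → ℝ} (hf : Loc f) (hg : Loc g) (F : ℝ → ℝ → ℝ)
    (hF : ∀ C C' : ℝ, ∃ D, ∀ a b, |a| ≤ C → |b| ≤ C' → |F a b| ≤ D) :
    Loc fun H => F (f H) (g H) := by
  obtain ⟨⟨r, h1⟩, h2, C, h3⟩ := hf
  obtain ⟨⟨r', h1'⟩, h2', C', h3'⟩ := hg
  obtain ⟨D, hD⟩ := hF C C'
  refine mk' ((hex_finite 0 r).union (hex_finite 0 r')) (fun H H' e => ?_) (fun H => ?_)
    fun H hH => hD _ _ (h3 H hH) (h3' H hH)
  · change F (f H) (g H) = F (f H') (g H')
    rw [h1 H H' fun x hx => e x (Or.inl hx), h1' H H' fun x hx => e x (Or.inr hx)]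
  · change F (f _) (g _) = F (f H) (g H)
    rw [h2 H, h2' H]

theorem act' (g : V ≃ V) (f : Cfg → ℝ) (hg : IsSym g) (hf : Loc f) : Loc (act g f) := by
  obtain ⟨⟨r, h1⟩, h2, C, h3⟩ := hf
  exact mk' ((hex_finite 0 r).image g) (fun H H' e => h1 _ _ fun x hx => e _ ⟨x, hx, rfl⟩)
    (fun H => h2 fun x => H (g x)) fun H hH => h3 _ fun x y h => hH _ _ ((hg x y).2 h)

theorem dif' {H : Cfg} (hH : Lip H) (x y : V) : |(H x : ℝ) - H y| ≤ nrm (x - y) := by
  have h : |H x - H y| ≤ nrm (x - y) := by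
    generalize hn : nrm (x - y) = n
    induction n generalizing x with
    | zero =>
      rw [sub_eq_zero.1 (nrm_eq_zero.1 hn)]
      simp
    | succ n ih =>
      obtain ⟨z, h1, h2⟩ := exists_closer hn
      have h3 := abs_le.1 (ih z h2)
      have h4 := abs_le.1 (hH _ _ h1)
      rw [abs_le]
      omega
  exact_mod_cast h

theorem lin' (a : V →₀ ℝ) (h : (a.sum fun _ c => c) = 0) : Loc (lin a) := by
  have key : ∀ (H : Cfg) (t : ℝ), ∑ x ∈ a.support, a x * ((H x : ℝ) - t) = lin a H := by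
    intro H t
    have h' : ∑ x ∈ a.support, a x = 0 := h
    simp only [mul_sub, Finset.sum_sub_distrib, ← Finset.sum_mul, h', zero_mul, sub_zero]
    rfl
  refine mk' a.support.finite_toSet (fun H H' e => ?_) (fun H => ?_)
    (C := ∑ x ∈ a.support, |a x| * nrm (x - 0)) fun H hH => ?_
  · exact Finset.sum_congr rfl fun x hx => by
      change a x * (H x : ℝ) = a x * (H' x : ℝ)
      rw [e x hx]
  · rw [← key _ 4, ← key H 0]
    refine Finset.sum_congr rfl fun x _ => ?_
    push_cast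
    ring
  · rw [← key H (H 0)]
    refine (Finset.abs_sum_le_sum_abs _ _).trans (Finset.sum_le_sum fun x _ => ?_)
    rw [abs_mul]
    exact mul_le_mul_of_nonneg_left (dif' hH x 0) (abs_nonneg _)

end Loc

theorem s_loc : S_loc where
  const c := Loc.mk' finite_empty (fun _ _ _ => rfl) (fun _ => rfl) fun _ _ => le_rfl
  add _ _ hf hg := Loc.two hf hg (fun a b => a + b) fun C C' =>
    ⟨C + C', fun a b ha hb => (abs_add_le a b).trans (add_le_add ha hb)⟩
  sub _ _ hf hg := Loc.two hf hg (fun a b => a - b) fun C C' =>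
    ⟨C + C', fun a b ha hb => (abs_sub a b).trans (add_le_add ha hb)⟩
  mul _ _ hf hg := Loc.two hf hg (fun a b => a * b) fun C C' =>
    ⟨C * C', fun a b ha hb => by
      rw [abs_mul]
      exact mul_le_mul ha hb (abs_nonneg _) ((abs_nonneg _).trans ha)⟩
  abs _ hf := Loc.two hf hf (fun a _ => |a|) fun C _ => ⟨C, fun a _ ha _ => by rwa [abs_abs]⟩
  act := Loc.act'
  sh w f hf := Loc.act' (tr w) f (fun x y => by
    change Adj (x + w) (y + w) ↔ Adj x y
    rw [adj_iff_nrm, adj_iff_nrm, add_sub_add_right_eq_sub]) hf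
  pc _ _ hA h := Loc.mk' hA h.1 h.2.1 h.2.2
  lin := Loc.lin'
  dif x y := Loc.mk' (A := {x, y}) (toFinite _)
    (fun H H' e => by
      change (H x : ℝ) - H y = (H' x : ℝ) - H' y
      rw [e x (by simp), e y (by simp)])
    (fun H => by
      push_cast
      ring)
    fun _ hH => Loc.dif' hH x y

end Vale.Agent.P153.Nu
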