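import Vale.Agent.P153.Nu.Stm
import Vale.Agent.P153.FKG.Basic
import Vale.Agent.P153.Planar.Basic

/-! P153, module NU: the abstract form of the moves. -/

open Set Filter Topology

noncomputable section
namespace Vale.Agent.P153.Nu

namespace MovA

theorem hex0 {x : V} {N : ℕ} : x ∈ hex 0 N ↔ -(N : ℤ) ≤ x.1 ∧ x.1 ≤ N ∧ -(N : ℤ) ≤ x.2 ∧
    x.2 ≤ N ∧ -(N : ℤ) ≤ x.1 + x.2 ∧ x.1 + x.2 ≤ N := by
  rw [mem_hex, sub_zero, nrm_le_iff]

theorem fin (N : ℕ) (p : V → Prop) : {x | x ∈ hex 0 N ∧ p x}.Finite :=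
  (hex_finite 0 N).subset fun _ hx => hx.1

theorem lip_act {g : V ≃ V} (hg : IsSym g) {H : Cfg} (h : Lip H) : Lip fun x => H (g x) :=
  fun x y hxy => h _ _ ((hg x y).2 hxy)

theorem pc_mul {A B D : Set V} {f g : Cfg → ℝ} (hf : Pc A f) (hg : Pc B g) (h1 : A ⊆ D)
    (h2 : B ⊆ D) : Pc D fun H => f H * g H := by
  refine ⟨fun H H' h => ?_, fun H => ?_, fun H hH => ?_⟩
  · exact congrArg₂ (· * ·) (hf.1 H H' fun x hx => h x (h1 hx)) (hg.1 H H' fun x hx => h x (h2 hx))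
  · exact congrArg₂ (· * ·) (hf.2.1 H) (hg.2.1 H)
  · rw [abs_mul]
    exact mul_le_one₀ (hf.2.2 H hH) (abs_nonneg _) (hg.2.2 H hH)

theorem pc_sh {A D : Set V} {f : Cfg → ℝ} {v : V} (hf : Pc A f) (h : ∀ x ∈ A, x + v ∈ D) :
    Pc D (sh v f) :=
  ⟨fun _ _ e => hf.1 _ _ fun x hx => e _ (h x hx), fun H => hf.2.1 fun x => H (x + v),
    fun _ hH => hf.2.2 _ (lip_act (isSym_tr v) hH)⟩

theorem pc_mono {A D : Set V} {f : Cfg → ℝ} (hf : Pc A f) (h : A ⊆ D) : Pc D f :=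
  ⟨fun _ _ e => hf.1 _ _ fun x hx => e _ (h hx), hf.2⟩

theorem pc_zero (A : Set V) : Pc A fun _ => 0 := ⟨fun _ _ _ => rfl, fun _ => rfl, fun _ _ => by simp⟩

/-- The data of the problem. -/
structure Dat (X : ℕ → Cfg → ℝ) (ρ s u w R : ℕ → ℕ) (P : ℕ) (C : ℝ) : Prop where
  l : S_loc
  k : S_nu
  m : S_mv
  loc : ∀ n, Loc (X n)
  dep : ∀ n, DepOn (X n) (hex 0 (ρ n))
  sq : ∀ n, nu (fun H => X n H ^ 2) ≤ C
  rp : Tendsto (fun n => nu fun H => X n H * act (rf (-(ρ n : ℤ))) (X n) H) atTop (𝓝 0)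
  ar : ∀ n, ρ n ≤ s n ∧ s n + 2 * ρ n + 4 * u n ≤ w n ∧ ρ n ≤ R n ∧ R n ≤ P * u n

/-- The correlation with `X` tends to zero. -/
def Z (X G : ℕ → Cfg → ℝ) : Prop := Tendsto (fun n => nu fun H => X n H * G n H) atTop (𝓝 0)

theorem Z.congr {X G G' : ℕ → Cfg → ℝ} (h : Z X G) (e : ∀ n H, G' n H = G n H) : Z X G' := by
  obtain rfl : G' = G := funext fun n => funext (e n)
  exact h

variable {X : ℕ → Cfg → ℝ} {ρ s u w R : ℕ → ℕ} {P : ℕ} {C : ℝ} (d : Dat X ρ s u w R P C)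
include d

theorem loc_sq {f : Cfg → ℝ} (h : Loc f) : Loc fun H => f H ^ 2 := by
  simpa only [sq] using d.l.mul f f h h

theorem mv {lf : V → ℤ} {v : V} (hM : Mv lf v) {F G : ℕ → Cfg → ℝ} {A B : ℕ → Set V}
    (hF : ∀ n, Pc (A n) (F n)) (hG : ∀ n, Pc (B n) (G n)) (hA : ∀ n, (A n).Finite)
    (hB : ∀ n, (B n).Finite) (y : ℕ → ℤ) (K : ℕ) (h1 : ∀ n, ∀ x ∈ hex 0 (ρ n), lf x ≤ y n)
    (h2 : ∀ n, ∀ x ∈ A n, lf x ≤ y n) (h3 : ∀ n, ∀ x ∈ B n, y n + 2 * u n ≤ lf x)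
    (h4 : ∀ t : ℕ, K ≤ t → Z X fun n H => F n H * sh (((t * u n : ℕ) : ℤ) • v) (G n) H) :
    Z X fun n H => F n H * G n H := by
  have lF := fun n => d.l.pc _ _ (hA n) (hF n)
  have lG := fun n => d.l.pc _ _ (hB n) (hG n)
  have lA := fun n => d.l.mul _ _ (d.loc n) (lF n)
  have := hM (fun n H => X n H * F n H) G y u (max C 1) K lA lG (fun n H H' h => congrArg₂ (· * ·)
      (d.dep n H H' fun x hx => h x (h1 n x hx)) ((hF n).1 H H' fun x hx => h x (h2 n x hx)))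
    (fun n H H' h => (hG n).1 H H' fun x hx => h x (h3 n x hx))
    (fun n => ((d.k.mono _ _ (loc_sq d (lA n)) (loc_sq d (d.loc n)) fun H hH => by
      rw [mul_pow]
      exact mul_le_of_le_one_right (sq_nonneg _)
        ((sq_le_one_iff_abs_le_one _).2 ((hF n).2.2 H hH))).trans (d.sq n)).trans (le_max_left _ _))
    (fun n => ((d.k.mono _ _ (loc_sq d (lG n)) (d.l.const 1) fun H hH =>
      (sq_le_one_iff_abs_le_one _).2 ((hG n).2.2 H hH)).trans (d.k.const 1).le).trans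
        (le_max_right _ _))
    (fun t ht => by simpa only [Z, mul_assoc] using h4 t ht)
  simpa only [Z, mul_assoc] using this

theorem s5 {G : ℕ → Cfg → ℝ} {N : ℕ → ℕ}
    (hG : ∀ n, Pc {x | x ∈ hex 0 (N n) ∧ x.2 ≤ -(ρ n : ℤ)} (G n)) : Z X G := by
  have lG := fun n => d.l.pc _ _ (fin _ _) (hG n)
  have h1 : ∀ n, nu (fun H => X n H * G n H) ^ 2 ≤
      |nu fun H => X n H * act (rf (-(ρ n : ℤ))) (X n) H| := by
    intro n
    have l1 := d.l.mul _ _ (lG n) (d.l.act (rf (-(ρ n : ℤ))) _ (isSym_rf _) (lG n))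
    have b : ∀ H, Lip H → |G n H * act (rf (-(ρ n : ℤ))) (G n) H| ≤ 1 := fun H hH => by
      rw [abs_mul]
      exact mul_le_one₀ ((hG n).2.2 H hH) (abs_nonneg _)
        ((hG n).2.2 _ (lip_act (isSym_rf _) hH))
    have b1 := d.k.mono _ _ l1 (d.l.const 1) fun H hH => (abs_le.1 (b H hH)).2
    have b2 := d.k.mono _ _ (d.l.const (-1)) l1 fun H hH => (abs_le.1 (b H hH)).1
    rw [d.k.const] at b1 b2
    refine (d.k.rcs (-(ρ n : ℤ)) _ _ (d.loc n) (lG n)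
      (fun H H' h => d.dep n H H' fun x hx => h x (hex0.1 hx).2.2.1)
      (fun H H' h => (hG n).1 H H' fun x hx => h x hx.2)).trans ((le_abs_self _).trans ?_)
    rw [abs_mul]
    exact mul_le_of_le_one_right (abs_nonneg _) (abs_le.2 ⟨b2, b1⟩)
  have h2 : Tendsto (fun n => nu (fun H => X n H * G n H) ^ 2) atTop (𝓝 0) :=
    squeeze_zero (fun _ => sq_nonneg _) h1 (by simpa using d.rp.abs)
  rw [Z, tendsto_zero_iff_abs_tendsto_zero]
  simpa [Function.comp_def, Real.sqrt_sq_eq_abs] using h2.sqrt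

theorem s4 {L Ψ : ℕ → Cfg → ℝ} {N : ℕ → ℕ} (hL : ∀ n, Pc (pL (s n) (w n) (R n)) (L n))
    (hΨ : ∀ n, Pc {x | x ∈ hex 0 (N n) ∧ -(ρ n : ℤ) ≤ x.1 + x.2 ∧ x.2 ≤ -(ρ n : ℤ)} (Ψ n)) :
    Z X fun n H => Ψ n H * L n H := by
  refine mv d d.m.sw hΨ hL (fun _ => fin _ _) (fun _ => fin _ _) (fun n => ρ n) (P + P)
    (fun n x hx => ?_) (fun n x hx => ?_) (fun n x hx => ?_) fun t ht => ?_
  · rw [hex0] at hx
    omega
  · simp only [mem_setOf_eq] at hx
    omega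
  · have := d.ar n
    simp only [pL, mem_setOf_eq] at hx
    omega
  · refine s5 d (N := fun n => N n + R n + 2 * (t * u n)) fun n =>
      pc_mul (hΨ n) (pc_sh (hL n) fun x hx => ?_) (fun x hx => ?_) Subset.rfl
    · have := d.ar n
      have h2 := Nat.mul_le_mul_right (u n) ht
      simp only [pL, mem_setOf_eq, hex0, Prod.fst_add, Prod.snd_add, Prod.smul_mk, smul_eq_mul,
        add_mul] at hx h2 ⊢
      omega
    · simp only [mem_setOf_eq, hex0] at hx ⊢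
      omega

theorem s3 {L Ψ : ℕ → Cfg → ℝ} {N : ℕ → ℕ} {Q : ℕ} (hN : ∀ n, N n ≤ Q * u n)
    (hL : ∀ n, Pc (pL (s n) (w n) (R n)) (L n))
    (hΨ : ∀ n, Pc {x | x ∈ hex 0 (N n) ∧ (ρ n : ℤ) + 2 * u n ≤ x.1} (Ψ n)) :
    Z X fun n H => L n H * Ψ n H := by
  refine mv d d.m.se hL hΨ (fun _ => fin _ _) (fun _ => fin _ _) (fun n => ρ n) (Q + P)
    (fun n x hx => ?_) (fun n x hx => ?_) (fun n x hx => hx.2) fun t ht => ?_
  · rw [hex0] at hx
    omega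
  · have := d.ar n
    simp only [pL, mem_setOf_eq] at hx
    omega
  · refine (s4 d (N := fun n => N n + 2 * (t * u n)) hL fun n =>
      pc_sh (hΨ n) fun x hx => ?_).congr fun n H => mul_comm _ _
    have := d.ar n
    have := hN n
    have h2 := Nat.mul_le_mul_right (u n) ht
    simp only [mem_setOf_eq, hex0, Prod.fst_add, Prod.snd_add, Prod.smul_mk, smul_eq_mul,
      add_mul] at hx h2 ⊢
    omega

theorem s2 {L Ψ Φ : ℕ → Cfg → ℝ} {N : ℕ → ℕ} {Q : ℕ} (hN : ∀ n, N n ≤ Q * u n)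
    (hL : ∀ n, Pc (pL (s n) (w n) (R n)) (L n))
    (hΨ : ∀ n, Pc {x | x ∈ hex 0 (N n) ∧ (ρ n : ℤ) + 2 * u n ≤ x.1 + x.2} (Ψ n))
    (hΦ : ∀ n, Pc {x | x ∈ hex 0 (N n) ∧ x.1 + x.2 ≤ ρ n ∧ (ρ n : ℤ) + 2 * u n ≤ x.1} (Φ n)) :
    Z X fun n H => L n H * Φ n H * Ψ n H := by
  refine mv d d.m.ne (A := fun n => {x | x ∈ hex 0 (N n + R n) ∧ x.1 + x.2 ≤ ρ n})
    (fun n => pc_mul (hL n) (hΦ n) (fun x hx => ?_) fun x hx => ?_) hΨ (fun _ => fin _ _)
    (fun _ => fin _ _) (fun n => ρ n) (Q + P + 2) (fun n x hx => ?_) (fun n x hx => hx.2)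
    (fun n x hx => hx.2) fun t ht => ?_
  · have := d.ar n
    simp only [pL, mem_setOf_eq, hex0] at hx ⊢
    omega
  · simp only [mem_setOf_eq, hex0] at hx ⊢
    omega
  · rw [hex0] at hx
    omega
  · refine (s3 d (N := fun n => N n + 2 * (t * u n)) (Q := Q + 2 * t) (fun n => ?_) hL fun n =>
      pc_mul (hΦ n) (pc_sh (hΨ n) fun x hx => ?_) (fun x hx => ?_) Subset.rfl).congr
        fun n H => mul_assoc _ _ _
    · have := hN n
      rw [add_mul, mul_assoc]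
      omega
    · have := d.ar n
      have := hN n
      have h2 := Nat.mul_le_mul_right (u n) ht
      simp only [mem_setOf_eq, hex0, Prod.fst_add, Prod.snd_add, Prod.smul_mk, smul_eq_mul,
        add_mul] at hx h2 ⊢
      omega
    · simp only [mem_setOf_eq, hex0] at hx ⊢
      omega

theorem s1 {L Θ B Ψ : ℕ → Cfg → ℝ} {N : ℕ → ℕ} {Q : ℕ} (hN : ∀ n, N n ≤ Q * u n)
    (hL : ∀ n, Pc (pL (s n) (w n) (R n)) (L n)) (hΘ : ∀ n, Pc (pR (s n) (w n) (R n)) (Θ n))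
    (hB : ∀ n, Pc (pB (s n) (u n) (R n)) (B n))
    (hΨ : ∀ n, Pc {x | x ∈ hex 0 (N n) ∧ -(s n : ℤ) ≤ x.2 ∧ (ρ n : ℤ) + 2 * u n ≤ x.1 + x.2}
      (Ψ n)) : Z X fun n H => L n H * (Θ n H * Ψ n H) * B n H := by
  have h0 : ∀ n, Pc {x | x ∈ hex 0 (N n + R n) ∧ -(s n : ℤ) ≤ x.2 ∧
      (ρ n : ℤ) + 2 * u n ≤ x.1 + x.2} fun H => Θ n H * Ψ n H := fun n => by
    refine pc_mul (hΘ n) (hΨ n) (fun x hx => ?_) fun x hx => ?_
    · have := d.ar n
      simp only [pR, mem_setOf_eq, hex0] at hx ⊢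
      omega
    · simp only [mem_setOf_eq, hex0] at hx ⊢
      omega
  refine mv d d.m.down (A := fun n => {x | x ∈ hex 0 (N n + R n) ∧ -x.2 ≤ s n})
    (fun n => pc_mul (hL n) (h0 n) (fun x hx => ?_) fun x hx => ?_) hB (fun _ => fin _ _)
    (fun _ => fin _ _) (fun n => s n) (P + P + 2) (fun n x hx => ?_) (fun n x hx => hx.2)
    (fun n x hx => ?_) fun t ht => ?_
  · simp only [pL, mem_setOf_eq, hex0] at hx ⊢
    omega
  · simp only [mem_setOf_eq, hex0] at hx ⊢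
    omega
  · have := d.ar n
    rw [hex0] at hx
    omega
  · simp only [pB, mem_setOf_eq] at hx
    omega
  · refine (s2 d (N := fun n => N n + R n + 2 * (t * u n)) (Q := Q + P + 2 * t) (fun n => ?_) hL
      (fun n => pc_mono (h0 n) fun x hx => ?_) fun n => pc_sh (hB n) fun x hx => ?_).congr
        fun n H => mul_right_comm _ _ _
    · have := hN n
      have := d.ar n
      rw [add_mul, add_mul, mul_assoc]
      omega
    · simp only [mem_setOf_eq, hex0] at hx ⊢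
      omega
    · have := d.ar n
      have h2 := Nat.mul_le_mul_right (u n) ht
      simp only [pB, mem_setOf_eq, hex0, Prod.fst_add, Prod.snd_add, Prod.smul_mk, smul_eq_mul,
        add_mul] at hx h2 ⊢
      omega

theorem s0 {T B L Θ : ℕ → Cfg → ℝ} (hT : ∀ n, Pc (pT (s n) (u n) (R n)) (T n))
    (hB : ∀ n, Pc (pB (s n) (u n) (R n)) (B n)) (hL : ∀ n, Pc (pL (s n) (w n) (R n)) (L n))
    (hΘ : ∀ n, Pc (pR (s n) (w n) (R n)) (Θ n)) :
    Z X fun n H => T n H * B n H * L n H * Θ n H := by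
  refine (mv d d.m.up (A := fun n => {x | x ∈ hex 0 (R n) ∧ x.2 ≤ s n})
    (F := fun n H => B n H * (L n H * Θ n H))
    (fun n => pc_mul (hB n) (pc_mul (hL n) (hΘ n) (fun x hx => ?_) fun x hx => ?_)
      (fun x hx => ?_) Subset.rfl) hT (fun _ => fin _ _)
    (fun _ => fin _ _) (fun n => s n) (P + P + 2) (fun n x hx => ?_) (fun n x hx => hx.2)
    (fun n x hx => hx.2) fun t ht => ?_).congr fun n H => by ring
  · simp only [pL, mem_setOf_eq, hex0] at hx ⊢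
    omega
  · simp only [pR, mem_setOf_eq, hex0] at hx ⊢
    omega
  · simp only [pB, mem_setOf_eq, hex0] at hx ⊢
    omega
  · have := d.ar n
    rw [hex0] at hx
    omega
  · refine (s1 d (N := fun n => R n + 2 * (t * u n)) (Q := P + 2 * t) (fun n => ?_) hL hΘ hB
      (Ψ := fun n => sh (((t * u n : ℕ) : ℤ) • ((-1, 2) : V)) (T n))
      fun n => pc_sh (hT n) fun x hx => ?_).congr fun n H => by ring
    · have := d.ar n
      rw [add_mul, mul_assoc]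
      omega
    · have := d.ar n
      have h2 := Nat.mul_le_mul_right (u n) ht
      simp only [pT, mem_setOf_eq, hex0, Prod.fst_add, Prod.snd_add, Prod.smul_mk, smul_eq_mul,
        add_mul] at hx h2 ⊢
      omega

end MovA

theorem s_movA (l : S_loc) (n : S_nu) (m : S_mv) : S_movA := by
  intro X ρ s u w R P C h1 h2 h3 h4 h5 ε hε
  have d : MovA.Dat X ρ s u w R P C := ⟨l, n, m, h1, h2, h3, h4, h5⟩
  have h6 : ∀ k, ∃ T B L Q : Cfg → ℝ, Pc (pT (s k) (u k) (R k)) T ∧ Pc (pB (s k) (u k) (R k)) B ∧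
      Pc (pL (s k) (w k) (R k)) L ∧ Pc (pR (s k) (w k) (R k)) Q ∧
      (|nu fun H => X k H * (T H * B H * L H * Q H)| ≤ ε → ∀ T B L Q : Cfg → ℝ,
        Pc (pT (s k) (u k) (R k)) T → Pc (pB (s k) (u k) (R k)) B → Pc (pL (s k) (w k) (R k)) L →
        Pc (pR (s k) (w k) (R k)) Q → |nu fun H => X k H * (T H * B H * L H * Q H)| ≤ ε) := by
    intro k
    by_cases h : ∀ T B L Q : Cfg → ℝ,
        Pc (pT (s k) (u k) (R k)) T → Pc (pB (s k) (u k) (R k)) B → Pc (pL (s k) (w k) (R k)) L →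
        Pc (pR (s k) (w k) (R k)) Q → |nu fun H => X k H * (T H * B H * L H * Q H)| ≤ ε
    · exact ⟨_, _, _, _, MovA.pc_zero _, MovA.pc_zero _, MovA.pc_zero _, MovA.pc_zero _, fun _ => h⟩
    · simp only [not_forall] at h
      obtain ⟨T, B, L, Q, a1, a2, a3, a4, a5⟩ := h
      exact ⟨T, B, L, Q, a1, a2, a3, a4, fun h => (a5 h).elim⟩
  choose T B L Q a1 a2 a3 a4 a5 using h6
  have h7 := (MovA.s0 d a1 a2 a3 a4).abs
  rw [abs_zero] at h7
  filter_upwards [h7.eventually (gt_mem_nhds hε)] with k hk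
  exact a5 k hk.le

end Vale.Agent.P153.Nu
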