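import Vale.Agent.P153.Nu.Stm

/-! P153, module NU: the moves in all directions. -/

open Set Filter Topology

noncomputable section
namespace Vale.Agent.P153.Nu

theorem Mv.map (l : S_loc) (n : S_nu) {f f' : V → ℤ} {v v' : V} (h : Mv f v) {g : V ≃ V}
    (hg : IsSym g) (h1 : ∀ x, f (g x) = f' x)
    (h2 : ∀ (x : V) (t : ℤ), g (x + t • v') = g x + t • v) : Mv f' v' := by
  intro A B y u C K hA hB dA dB cA cB ht
  have sq : ∀ p, Loc p → nu (fun H => act g p H ^ 2) = nu fun H => p H ^ 2 := fun p hp => by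
    simp only [pow_two]
    exact n.sym g _ hg (l.mul _ _ hp hp)
  have := h (fun k => act g (A k)) (fun k => act g (B k)) y u C K
    (fun k => l.act g _ hg (hA k)) (fun k => l.act g _ hg (hB k))
    (fun k H H' h => dA k _ _ fun x hx => h _ (by rwa [mem_ofPred_eq, h1]))
    (fun k H H' h => dB k _ _ fun x hx => h _ (by rwa [mem_ofPred_eq, h1]))
    (fun k => (sq _ (hA k)).trans_le (cA k)) (fun k => (sq _ (hB k)).trans_le (cB k))
    fun t h => (ht t h).congr fun k => by
      rw [← n.sym g _ hg (l.mul _ _ (hA k) (l.sh _ _ (hB k)))]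
      refine congrArg nu (funext fun H => ?_)
      simp only [act, sh, h2]
  exact this.congr fun k => n.sym g _ hg (l.mul _ _ (hA k) (hB k))

theorem s_mv (l : S_loc) (n : S_nu) (m : S_mv0) : S_mv := by
  have r : ∀ {f f' : V → ℤ} {v v' : V}, Mv f v → (∀ x, f (rot x) = f' x) → rot v' = v →
      Mv f' v' := fun h h1 h2 => h.map l n isSym_rot h1 fun x t => by
    subst h2
    simp only [rot, Equiv.coe_fn_mk, Prod.ext_iff, Prod.fst_add, Prod.snd_add, Prod.smul_fst,
      Prod.smul_snd, smul_eq_mul]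
    constructor <;> ring
  have m1 : Mv (fun x => x.1 + x.2) (1, 1) := r m (fun _ => rfl) rfl
  have m2 : Mv (fun x => x.1) (2, -1) := r m1 (fun x => by simp [rot]) rfl
  have m3 : Mv (fun x => -x.2) (1, -2) := r m2 (fun _ => rfl) rfl
  exact ⟨m, m3, m1, m2, r m3 (fun _ => rfl) rfl⟩

end Vale.Agent.P153.Nu
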