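import Vale.Agent.P153.Nu.Stm

/-! P153, module NU: the move across rows. -/

open Set Filter Topology

noncomputable section
namespace Vale.Agent.P153.Nu

namespace Mv0

theorem seq (D : ℕ → ℕ → ℕ → ℝ) (C : ℝ) (K : ℕ)
    (h1 : ∀ n j m, D n j (m + 1) = D n j m - D n (j + 1) m)
    (h2 : ∀ n j m, D n (j + 1) m ^ 2 ≤ C / (m + 1))
    (h3 : ∀ t, K ≤ t → Tendsto (fun n => D n (t + 1) 0) atTop (𝓝 0)) :
    Tendsto (fun n => D n 1 0) atTop (𝓝 0) := by
  induction K with
  | zero => exact h3 0 le_rfl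
  | succ J ih =>
    refine ih fun t ht => ?_
    rcases ht.lt_or_eq with ht | rfl
    · exact h3 t ht
    have a : ∀ m t, J + 1 ≤ t → Tendsto (fun n => D n (t + 1) m) atTop (𝓝 0) := fun m => by
      induction m with
      | zero => exact h3
      | succ m ih =>
        intro t ht
        simpa only [h1, sub_zero] using (ih t ht).sub (ih (t + 1) (ht.trans t.le_succ))
    have b : ∀ m, Tendsto (fun n => D n (J + 1) 0 - D n (J + 1) m) atTop (𝓝 0) := fun m => by
      induction m with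
      | zero => simp
      | succ m ih =>
        have := ih.add (a m (J + 1) le_rfl)
        rw [add_zero] at this
        exact this.congr fun n => by rw [h1]; ring
    refine Metric.tendsto_atTop.2 fun ε hε => ?_
    obtain ⟨m, hm⟩ := exists_nat_gt (C / (ε / 2) ^ 2)
    obtain ⟨N, hN⟩ := Metric.tendsto_atTop.1 (b m) _ (half_pos hε)
    refine ⟨N, fun n hn => ?_⟩
    have e1 := hN n hn
    have e2 : |D n (J + 1) m| ≤ ε / 2 := abs_le_of_sq_le_sq' ((h2 n J m).trans (by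
      rw [div_lt_iff₀ (by positivity)] at hm
      rw [div_le_iff₀ (by positivity)]
      nlinarith [sq_nonneg (ε / 2)])) (half_pos hε).le |> abs_le.2
    rw [Real.dist_0_eq_abs] at e1 ⊢
    linarith [abs_sub_abs_le_abs_sub (D n (J + 1) 0) (D n (J + 1) m)]

/-- Observables of the upper half plane. -/
def Wy (l : S_loc) (y : ℤ) : Submodule ℝ (Cfg → ℝ) where
  carrier := {f | Loc f ∧ DepOn f {x | y ≤ x.2}}
  add_mem' := fun {f g} hf hg => ⟨l.add f g hf.1 hg.1, fun H H' h => by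
    simp only [Pi.add_apply, hf.2 H H' h, hg.2 H H' h]⟩
  zero_mem' := ⟨l.const 0, fun _ _ _ => rfl⟩
  smul_mem' := fun c f hf => ⟨l.mul _ f (l.const c) hf.1, fun H H' h => by
    simp only [Pi.smul_apply, hf.2 H H' h]⟩

theorem half (l : S_loc) (n : S_nu) {p q : Cfg → ℝ} (hp : Loc p) (hq : Loc q) {c : ℝ}
    (h1 : nu (fun H => p H * p H) = c) (h2 : nu (fun H => q H * q H) = c) :
    nu (fun H => p H * q H) ≤ c := by
  have m1 := l.mul _ _ hp hp
  have m2 := l.mul _ _ hq hq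
  have := n.mono _ _ (l.mul _ _ (l.const 2) (l.mul _ _ hp hq)) (l.add _ _ m1 m2) fun H _ => by
    nlinarith [sq_nonneg (p H - q H)]
  rw [n.smul _ _ (l.mul _ _ hp hq), n.add _ _ m1 m2] at this
  linarith

theorem shsq (l : S_loc) (n : S_nu) (w : V) {f : Cfg → ℝ} (hf : Loc f) :
    nu (fun H => sh w f H * sh w f H) = nu fun H => f H * f H := n.sh w _ (l.mul f f hf hf)

theorem rfsq (l : S_loc) (n : S_nu) (y : ℤ) {f : Cfg → ℝ} (hf : Loc f) :
    nu (fun H => act (rf y) f H * act (rf y) f H) = nu fun H => f H * f H :=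
  n.sym (rf y) _ (isSym_rf y) (l.mul f f hf hf)

theorem sh_sh (s t : ℤ) (v : V) (f : Cfg → ℝ) :
    sh (s • v) (sh (t • v) f) = sh ((t + s) • v) f := by
  funext H
  simp only [sh, add_assoc, add_smul]

theorem e1 (y t : ℤ) (g : Cfg → ℝ) :
    sh (t • (-1, 2)) (act (rf y) (sh (t • (-1, 2)) g)) = act (rf y) g := by
  funext H
  refine congrArg g (funext fun x => congrArg H ?_)
  simp only [rf, Equiv.coe_fn_mk, Prod.ext_iff, Prod.fst_add, Prod.snd_add, Prod.smul_fst,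
    Prod.smul_snd, smul_eq_mul]
  omega

theorem e2 (y t : ℤ) (g : Cfg → ℝ) : act (rf (y + t)) (sh (t • (-1, 2)) g) = act (rf y) g := by
  funext H
  refine congrArg g (funext fun x => congrArg H ?_)
  simp only [rf, Equiv.coe_fn_mk, Prod.ext_iff, Prod.fst_add, Prod.snd_add, Prod.smul_fst,
    Prod.smul_snd, smul_eq_mul]
  omega

theorem R (l : S_loc) (z : ℤ) {f : Cfg → ℝ} (h : Loc f) : Loc (act (rf z) f) :=
  l.act _ f (isSym_rf z) h

/-- The reflection positive form. -/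
def be (l : S_loc) (n : S_nu) (y : ℤ) : Wy l y →ₗ[ℝ] Wy l y →ₗ[ℝ] ℝ := LinearMap.mk₂ ℝ
  (fun f g => nu fun H => f.1 H * act (rf y) g.1 H)
  (fun f f' g => by
    rw [← n.add _ _ (l.mul _ _ f.2.1 (R l y g.2.1)) (l.mul _ _ f'.2.1 (R l y g.2.1))]
    exact congrArg nu (funext fun H => add_mul _ _ _))
  (fun c f g => by
    rw [smul_eq_mul, ← n.smul _ _ (l.mul _ _ f.2.1 (R l y g.2.1))]
    exact congrArg nu (funext fun H => mul_assoc _ _ _))
  (fun f g g' => by
    rw [← n.add _ _ (l.mul _ _ f.2.1 (R l y g.2.1)) (l.mul _ _ f.2.1 (R l y g'.2.1))]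
    exact congrArg nu (funext fun H => mul_add _ _ _))
  (fun c f g => by
    rw [smul_eq_mul, ← n.smul _ _ (l.mul _ _ f.2.1 (R l y g.2.1))]
    exact congrArg nu (funext fun H => mul_left_comm _ _ _))

theorem up {l : S_loc} {y : ℤ} (u : ℕ) {f : Cfg → ℝ} (hf : f ∈ Wy l y) :
    DepOn (sh ((u : ℤ) • (-1, 2)) f) {x | y + u ≤ x.2} :=
  fun H H' h => hf.2 _ _ fun x hx => h _ (by
    simp only [mem_ofPred_eq, Prod.snd_add, Prod.smul_snd, smul_eq_mul] at hx ⊢; omega)

/-- The shift away from the row. -/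
def Tr (l : S_loc) (y : ℤ) (u : ℕ) : Wy l y →ₗ[ℝ] Wy l y where
  toFun f := ⟨sh ((u : ℤ) • (-1, 2)) f.1, l.sh _ _ f.2.1, fun H H' h =>
    up u f.2 H H' fun x hx => h x (by simp only [mem_ofPred_eq] at hx ⊢; omega)⟩
  map_add' _ _ := rfl
  map_smul' _ _ := rfl

variable (l : S_loc) (n : S_nu) (y : ℤ) (u : ℕ)

theorem hβ (f g : Wy l y) : be l n y f g = nu fun H => f.1 H * act (rf y) g.1 H := rfl

theorem hT (f : Wy l y) : (Tr l y u f).1 = sh ((u : ℤ) • (-1, 2)) f.1 := rfl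

theorem hp (t : ℕ) (f : Wy l y) :
    ((Tr l y u ^ t) f).1 = sh (((t * u : ℕ) : ℤ) • (-1, 2)) f.1 := by
  induction t with
  | zero => funext H; simp [sh]
  | succ t ih =>
    rw [pow_succ', Module.End.mul_apply, hT, ih, sh_sh, add_mul, one_mul, Nat.cast_add]

theorem bd (t : ℕ) (f : Wy l y) :
    be l n y ((Tr l y u ^ t) f) f ≤ nu fun H => f.1 H * f.1 H := by
  rw [hβ, hp]
  exact half l n (l.sh _ _ f.2.1) (R l y f.2.1) (shsq l n _ f.2.1) (rfsq l n y f.2.1)

theorem p0 (f : Wy l y) : 0 ≤ be l n y f f := n.rp y _ f.2.1 f.2.2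

theorem bd0 (f : Wy l y) : be l n y f f ≤ nu fun H => f.1 H * f.1 H := by
  simpa only [pow_zero, Module.End.one_apply] using bd l n y 0 0 f

theorem sy (f g : Wy l y) : be l n y f g = be l n y g f := by
  rw [hβ, hβ, ← n.sym _ _ (isSym_rf y) (l.mul _ _ f.2.1 (R l y g.2.1))]
  refine congrArg nu (funext fun H => ?_)
  simp only [act, show ∀ x, rf y (rf y x) = x from (rf y).left_inv, mul_comm]

theorem sa (f g : Wy l y) : be l n y (Tr l y u f) g = be l n y f (Tr l y u g) := by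
  rw [hβ, hβ, hT, hT, ← n.sh ((u : ℤ) • (-1, 2)) _
    (l.mul _ _ f.2.1 (R l y (l.sh _ _ g.2.1))), ← e1 y u g.1]
  rfl

theorem p1 (f : Wy l y) : 0 ≤ be l n y (Tr l y u f) f := by
  rw [hβ, hT, ← e2 y u f.1]
  exact n.rp (y + u) _ (l.sh _ _ f.2.1) (up u f.2)

theorem stp {W : Type} [AddCommGroup W] [Module ℝ W] (T : W →ₗ[ℝ] W) (f : W) (j m : ℕ) :
    (T ^ j * (1 - T) ^ (m + 1)) f = (T ^ j * (1 - T) ^ m) f - (T ^ (j + 1) * (1 - T) ^ m) f := by
  rw [pow_succ' (1 - T), pow_succ T]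
  simp only [Module.End.mul_apply, LinearMap.sub_apply, Module.End.one_apply, map_sub]

include n in
theorem one (a : S_abs) (f g : Wy l y) : ∃ D : ℕ → ℕ → ℝ,
    (∀ j : ℕ, D j 0 =
      nu fun H => sh (((j * u : ℕ) : ℤ) • ((-1, 2) : V)) f.1 H * act (rf y) g.1 H) ∧
    (∀ j m, D j (m + 1) = D j m - D (j + 1) m) ∧ ∀ j m, D (j + 1) m ^ 2 ≤
      nu (fun H => f.1 H * f.1 H) * nu (fun H => g.1 H * g.1 H) / (m + 1) := by
  have key := a _ (be l n y) (Tr l y u) (sy l n y) (p0 l n y) (sa l n y u) (p1 l n y u)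
    (fun f => ⟨_, fun t => bd l n y u t f⟩) f g
  refine ⟨fun j m => be l n y ((Tr l y u ^ j * (1 - Tr l y u) ^ m) f) g, fun j => ?_,
    fun j m => ?_, fun j m => (key j m).trans (div_le_div_of_nonneg_right (mul_le_mul
      (bd0 l n y f) (bd0 l n y g) (p0 l n y g) ((p0 l n y f).trans (bd0 l n y f)))
      (by positivity))⟩
  · beta_reduce
    rw [pow_zero, mul_one, hβ, hp]
  · beta_reduce
    rw [stp, map_sub, LinearMap.sub_apply]

end Mv0

open Mv0 in
theorem s_mv0 (l : S_loc) (n : S_nu) (a : S_abs) : S_mv0 := by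
  intro A B y u C K hA hB dA dB cA cB h
  have m1 : ∀ k, sh (-((u k : ℤ) • ((-1, 2) : V))) (B k) ∈ Wy l (y k) := fun k =>
    ⟨l.sh _ _ (hB k), fun H H' h => dB k _ _ fun x hx => h _ (by
      simp only [mem_ofPred_eq, Prod.snd_add, Prod.snd_neg, Prod.smul_snd, smul_eq_mul] at hx ⊢
      omega)⟩
  have m2 : ∀ k, act (rf (y k)) (A k) ∈ Wy l (y k) := fun k =>
    ⟨l.act _ _ (isSym_rf _) (hA k), fun H H' h => dA k _ _ fun x hx => h _ (by
      simp only [mem_ofPred_eq, rf, Equiv.coe_fn_mk] at hx ⊢; omega)⟩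
  choose D d1 d2 d3 using fun k => one l n (y k) (u k) a ⟨_, m1 k⟩ ⟨_, m2 k⟩
  dsimp only at d1 d3
  have e : ∀ k t, D k (t + 1) 0 =
      nu fun H => A k H * sh (((t * u k : ℕ) : ℤ) • ((-1, 2) : V)) (B k) H := fun k t => by
    rw [d1, ← neg_smul, sh_sh, add_mul, one_mul, Nat.cast_add, neg_add_cancel_comm_assoc]
    refine congrArg nu (funext fun H => ?_)
    simp only [act, show ∀ x, rf (y k) (rf (y k) x) = x from (rf (y k)).left_inv, mul_comm]
  have nn : ∀ f, Loc f → 0 ≤ nu fun H => f H * f H := fun f hf =>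
    (n.const 0).ge.trans (n.mono _ _ (l.const 0) (l.mul _ _ hf hf) fun H _ => mul_self_nonneg _)
  have := seq D (C * C) K d2 (fun k j m => (d3 k j m).trans
    (div_le_div_of_nonneg_right ?_ (by positivity))) fun t ht => by simpa only [e] using h t ht
  · refine this.congr fun k => (e k 0).trans (congrArg nu (funext fun H => ?_))
    simp [sh]
  · have c1 := (shsq l n (-((u k : ℤ) • ((-1, 2) : V))) (hB k)).trans_le
      (by simpa only [sq] using cB k)
    have c2 := (rfsq l n (y k) (hA k)).trans_le (by simpa only [sq] using cA k)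
    exact mul_le_mul c1 c2 (nn _ (m2 k).1) ((nn _ (m1 k).1).trans c1)

end Vale.Agent.P153.Nu
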