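import Vale.Agent.P153.Nu.Stm
import Vale.Agent.P153.FKG.Basic
import Vale.Agent.P153.Planar.Basic

/-! P153, module NU: reflection positivity in finite volume. -/

open Set Filter Topology

noncomputable section
namespace Vale.Agent.P153.Nu

namespace Rp0

/-- Product structure of a finite set stable under a gluing map. -/
theorem prod_sum (t : Finset Cfg) (G : Cfg → Cfg → Cfg) (f g : Cfg → ℝ)
    (hG : ∀ a ∈ t, ∀ b ∈ t, G a b ∈ t) (hGG : ∀ a b, G (G a b) (G b a) = a)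
    (hf : ∀ a ∈ t, ∀ b ∈ t, f (G a b) = f a) (hg : ∀ a ∈ t, ∀ b ∈ t, g (G a b) = g b) :
    (∑ a ∈ t, f a) * ∑ a ∈ t, g a = t.card * ∑ a ∈ t, f a * g a := by
  have h1 : (∑ a ∈ t, f a) * ∑ a ∈ t, g a =
      ∑ p ∈ t ×ˢ t, f (G p.1 p.2) * g (G p.1 p.2) := by
    rw [Finset.sum_mul_sum, Finset.sum_product]
    refine Finset.sum_congr rfl fun a ha => Finset.sum_congr rfl fun b hb => ?_
    rw [hf a ha b hb, hg a ha b hb]
  have h2 : ∑ p ∈ t ×ˢ t, f (G p.1 p.2) * g (G p.1 p.2) = ∑ p ∈ t ×ˢ t, f p.1 * g p.1 := by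
    have h3 : ∀ p ∈ t ×ˢ t, (G p.1 p.2, G p.2 p.1) ∈ t ×ˢ t := fun p hp => by
      rw [Finset.mem_product] at hp ⊢
      exact ⟨hG _ hp.1 _ hp.2, hG _ hp.2 _ hp.1⟩
    exact Finset.sum_nbij' (fun p => (G p.1 p.2, G p.2 p.1)) (fun p => (G p.1 p.2, G p.2 p.1))
      h3 h3 (fun p _ => Prod.ext (hGG _ _) (hGG _ _)) (fun p _ => Prod.ext (hGG _ _) (hGG _ _))
      fun p _ => rfl
  rw [h1, h2, Finset.sum_product, Finset.mul_sum]
  refine Finset.sum_congr rfl fun a _ => ?_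
  simp only [Finset.sum_const, nsmul_eq_mul]

/-- Gluing along the row zero. -/
def glue (H₁ H₂ : Cfg) : Cfg := fun x => if 0 ≤ x.2 then H₁ x else H₂ x

theorem glue_glue (a b : Cfg) : glue (glue a b) (glue b a) = a := by
  funext x
  unfold glue
  split_ifs <;> rfl

theorem glue_up (a b : Cfg) {x : V} (hx : 0 ≤ x.2) : glue a b x = a x := if_pos hx

theorem glue_down {a b : Cfg} (h : ∀ i : ℤ, a (i, 0) = b (i, 0)) {x : V} (hx : x.2 ≤ 0) :
    glue a b x = b x := by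
  unfold glue
  split_ifs with h1
  · obtain ⟨i, j⟩ := x
    obtain rfl : j = 0 := le_antisymm hx h1
    exact h i
  · rfl

theorem glue_mem {U : Set V} {a b : Cfg} (ha : a ∈ free U 0) (hb : b ∈ free U 0)
    (h : ∀ i : ℤ, a (i, 0) = b (i, 0)) : glue a b ∈ free U 0 := by
  refine ⟨fun x y hxy => ?_, fun x hx => ?_, fun x hx => ?_⟩
  · have h1 := abs_le.1 (lip_snd x y hxy)
    by_cases h2 : 0 ≤ x.2 ∧ 0 ≤ y.2
    · rw [glue_up a b h2.1, glue_up a b h2.2]
      exact ha.1 x y hxy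
    · rw [glue_down h (x := x) (by omega), glue_down h (x := y) (by omega)]
      exact hb.1 x y hxy
  · unfold glue
    split_ifs
    · exact ha.2.1 x hx
    · exact hb.2.1 x hx
  · unfold glue
    split_ifs
    · exact ha.2.2 x hx
    · exact hb.2.2 x hx

theorem rf_rf (x : V) : rf 0 (rf 0 x) = x := (rf 0).left_inv x

theorem rf_row (i : ℤ) : rf 0 (i, 0) = (i, 0) := by simp [rf]

theorem nrm_rf (x : V) : nrm (rf 0 x - 0) = nrm (x - 0) := by
  have h := (isSym_rf 0).nrm_eq 0 x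
  rwa [show rf 0 (0 : V) = 0 from rf_row 0] at h

theorem rf_mem {N : ℕ} {a : Cfg} (ha : a ∈ free (hex 0 N) 0) :
    (fun x => a (rf 0 x)) ∈ free (hex 0 N) 0 := by
  refine ⟨fun x y hxy => ha.1 _ _ ((isSym_rf 0 x y).2 hxy), fun x hx => ha.2.1 _ ?_,
    fun x hx => ha.2.2 _ ?_⟩
  · rwa [mem_hex, nrm_rf]
  · rw [mem_ibd_hex] at hx ⊢
    rwa [nrm_rf]

theorem fibre (N : ℕ) (f : Cfg → ℝ) (hf : DepOn f {x | 0 ≤ x.2}) (κ : ℤ → ℤ) :
    0 ≤ Ex (free (hex 0 N) 0 ∩ {H | (fun i : ℤ => H (i, 0)) = κ})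
      fun H => f H * act (rf 0) f H := by
  set T : Set Cfg := free (hex 0 N) 0 ∩ {H | (fun i : ℤ => H (i, 0)) = κ} with hT
  by_cases hfin : T.Finite
  swap
  · rw [Ex_inf hfin]
  have hrow : ∀ a ∈ T, ∀ b ∈ T, ∀ i : ℤ, a (i, 0) = b (i, 0) := fun a ha b hb i =>
    congrFun (ha.2.trans hb.2.symm) i
  have hR : ∀ a ∈ T, (fun x => a (rf 0 x)) ∈ T := fun a ha => by
    refine ⟨rf_mem ha.1, ?_⟩
    rw [← ha.2]
    funext i
    exact congrArg a (rf_row i)
  have h1 := prod_sum hfin.toFinset glue f (act (rf 0) f)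
    (fun a ha b hb => by
      rw [hfin.mem_toFinset] at ha hb ⊢
      refine ⟨glue_mem ha.1 hb.1 (hrow a ha b hb), ?_⟩
      rw [← ha.2]
      funext i
      exact glue_up a b le_rfl)
    glue_glue (fun a _ b _ => hf _ _ fun x hx => glue_up a b hx)
    (fun a ha b hb => by
      rw [hfin.mem_toFinset] at ha hb
      refine hf _ _ fun x hx => glue_down (hrow a ha b hb) ?_
      have h2 : 0 ≤ x.2 := hx
      change 2 * 0 - x.2 ≤ 0
      omega)
  have h2 : ∑ a ∈ hfin.toFinset, act (rf 0) f a = ∑ a ∈ hfin.toFinset, f a := by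
    have h3 : ∀ a ∈ hfin.toFinset, (fun x => a (rf 0 x)) ∈ hfin.toFinset := fun a ha =>
      hfin.mem_toFinset.2 (hR a (hfin.mem_toFinset.1 ha))
    exact Finset.sum_nbij' (fun a x => a (rf 0 x)) (fun a x => a (rf 0 x)) h3 h3
      (fun a _ => funext fun x => congrArg a (rf_rf x))
      (fun a _ => funext fun x => congrArg a (rf_rf x)) fun a _ => rfl
  rw [h2] at h1
  rw [Ex_eq hfin]
  rcases T.eq_empty_or_nonempty with h3 | h3
  · simp [h3]
  refine div_nonneg ?_ (Nat.cast_nonneg _)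
  have h4 : (0 : ℝ) < hfin.toFinset.card := by
    exact_mod_cast Finset.card_pos.2 ((Finite.toFinset_nonempty hfin).2 h3)
  exact (mul_nonneg_iff_of_pos_left h4).1 (h1 ▸ mul_self_nonneg _)

end Rp0

theorem s_rp0 : S_rp0 := by
  intro N f hf
  rw [tower _ fun H (i : ℤ) => H (i, 0)]
  exact Ex_nonneg fun H _ => Rp0.fibre N f hf _

end Vale.Agent.P153.Nu
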