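import Vale.Agent.P153.Nu.Defs

/-! P153, module NU: statements. -/

open Set Filter Topology

noncomputable section
namespace Vale.Agent.P153.Nu

/-! ### Inputs -/

/-- Input (APP): the free measures of two large hexagons agree on local observables. -/
def TVI : Prop :=
  ∀ (r : ℕ) (ε : ℝ), 0 < ε → ∃ R : ℕ, ∀ (a b : V) (N N' : ℕ), hex 0 R ⊆ hex a N →
    hex 0 R ⊆ hex b N' → ∀ f, Pc (hex 0 r) f →
      |Ex (free (hex a N) 0) f - Ex (free (hex b N') 0) f| ≤ ε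

/-- Input (APP): sublinear variance. -/
def VSub : Prop :=
  ∀ ε : ℝ, 0 < ε → ∃ C : ℝ, ∀ x : V, ∀ᶠ N : ℕ in atTop,
    Ex (free (hex 0 N) 0) (fun H => ((H x : ℝ) - H 0) ^ 2) ≤ C + ε * nrm x

/-- Input (APP): second moment of zero sum linear statistics. -/
def M2 : Prop :=
  ∃ C : ℝ, ∀ (r : ℕ) (a : V →₀ ℝ), (∀ x ∈ a.support, x ∈ hex 0 r) → (∀ x, |a x| ≤ 1) →
    (a.sum fun _ c => c) = 0 → ∀ᶠ N : ℕ in atTop,
      Ex (free (hex 0 N) 0) (fun H => lin a H ^ 2) ≤ C * (r : ℝ) ^ 4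

/-- Input (Spec): harmonicity in the reflection positive norm, with bounded offsets. -/
def Har : Prop :=
  ∀ W : ℤ × ℤ → ℝ, P153.Spec.RPData W → ∀ φ : ℂ → ℝ, ContDiff ℝ 4 φ → HasCompactSupport φ →
    ∀ (δ : ℕ → ℝ) (c : ℕ → ℂ) (B : ℝ), (∀ n, 0 < δ n) → Tendsto δ atTop (𝓝 0) →
    (∀ n, ‖c n‖ ≤ B) → (∀ n z, z.im ≤ 0 → φ (z + c n) = 0) → ∀ S : ℕ → Finset (ℤ × ℤ),
    (∀ n x, P153.Spec.lap (fun y => φ (δ n * P153.Spec.pos y + c n)) x ≠ 0 → x ∈ S n) →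
    Tendsto (fun n => -(1 / 2) * ∑ x ∈ S n, ∑ y ∈ S n,
      P153.Spec.lap (fun y => φ (δ n * P153.Spec.pos y + c n)) x *
        P153.Spec.lap (fun y => φ (δ n * P153.Spec.pos y + c n)) y * W (x - P153.Spec.R0 y))
      atTop (𝓝 0)

/-! ### Outputs -/

/-- Local observables form an algebra stable under the symmetries. -/
structure S_loc : Prop where
  const : ∀ c : ℝ, Loc fun _ => c
  add : ∀ f g, Loc f → Loc g → Loc fun H => f H + g H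
  sub : ∀ f g, Loc f → Loc g → Loc fun H => f H - g H
  mul : ∀ f g, Loc f → Loc g → Loc fun H => f H * g H
  abs : ∀ f, Loc f → Loc fun H => |f H|
  act : ∀ (g : V ≃ V) f, IsSym g → Loc f → Loc (act g f)
  sh : ∀ w f, Loc f → Loc (sh w f)
  pc : ∀ (A : Set V) f, A.Finite → Pc A f → Loc f
  lin : ∀ a : V →₀ ℝ, (a.sum fun _ c => c) = 0 → Loc (lin a)
  dif : ∀ x y : V, Loc fun H => (H x : ℝ) - H y

/-- The functional: existence, algebra, invariance, reflection positivity. -/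
structure S_nu : Prop where
  tend : ∀ f, Loc f → Tendsto (fun N : ℕ => Ex (free (hex 0 N) 0) f) atTop (𝓝 (nu f))
  tend' : ∀ (a : V) f, Loc f → Tendsto (fun N : ℕ => Ex (free (hex a N) 0) f) atTop (𝓝 (nu f))
  congr : ∀ f g : Cfg → ℝ, (∀ H, Lip H → f H = g H) → nu f = nu g
  const : ∀ c : ℝ, nu (fun _ => c) = c
  add : ∀ f g, Loc f → Loc g → nu (fun H => f H + g H) = nu f + nu g
  sub : ∀ f g, Loc f → Loc g → nu (fun H => f H - g H) = nu f - nu g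
  smul : ∀ (c : ℝ) f, Loc f → nu (fun H => c * f H) = c * nu f
  sum : ∀ (ι : Type) (s : Finset ι) (F : ι → Cfg → ℝ), (∀ i ∈ s, Loc (F i)) →
    Loc (fun H => ∑ i ∈ s, F i H) ∧ nu (fun H => ∑ i ∈ s, F i H) = ∑ i ∈ s, nu (F i)
  mono : ∀ f g, Loc f → Loc g → (∀ H, Lip H → f H ≤ g H) → nu f ≤ nu g
  cs : ∀ f g, Loc f → Loc g →
    nu (fun H => f H * g H) ^ 2 ≤ nu (fun H => f H ^ 2) * nu fun H => g H ^ 2
  sh : ∀ w f, Loc f → nu (sh w f) = nu f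
  sym : ∀ (g : V ≃ V) f, IsSym g → Loc f → nu (act g f) = nu f
  flip : ∀ f, Loc f → Loc (fun H => f fun x => 1 - H x) ∧ nu (fun H => f fun x => 1 - H x) = nu f
  rp : ∀ (y : ℤ) f, Loc f → DepOn f {x | y ≤ x.2} → 0 ≤ nu fun H => f H * act (rf y) f H
  rcs : ∀ (y : ℤ) f g, Loc f → Loc g → DepOn f {x | y ≤ x.2} → DepOn g {x | x.2 ≤ y} →
    nu (fun H => f H * g H) ^ 2 ≤
      nu (fun H => f H * act (rf y) f H) * nu fun H => g H * act (rf y) g H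

/-- Reflection positivity in finite volume. -/
def S_rp0 : Prop :=
  ∀ (N : ℕ) (f : Cfg → ℝ), DepOn f {x | 0 ≤ x.2} →
    0 ≤ Ex (free (hex 0 N) 0) fun H => f H * act (rf 0) f H

/-- The data for the spectral argument. -/
def S_data : Prop := P153.Spec.RPData Vf

/-- Positive contractions: if far correlations vanish, so does the near one. -/
def S_abs : Prop :=
  ∀ (W : Type) [AddCommGroup W] [Module ℝ W] (β : W →ₗ[ℝ] W →ₗ[ℝ] ℝ) (T : W →ₗ[ℝ] W),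
    (∀ f g, β f g = β g f) → (∀ f, 0 ≤ β f f) → (∀ f g, β (T f) g = β f (T g)) →
    (∀ f, 0 ≤ β (T f) f) → (∀ f, ∃ C, ∀ t : ℕ, β ((T ^ t) f) f ≤ C) →
    ∀ (f g : W) (j m : ℕ),
      β ((T ^ (j + 1) * (1 - T) ^ m) f) g ^ 2 ≤ β f f * β g g / (m + 1)

/-- The move principle for the form `l` and the normal vector `v`. -/
def Mv (l : V → ℤ) (v : V) : Prop :=
  ∀ (A B : ℕ → Cfg → ℝ) (y : ℕ → ℤ) (u : ℕ → ℕ) (C : ℝ) (K : ℕ), (∀ n, Loc (A n)) →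
    (∀ n, Loc (B n)) → (∀ n, DepOn (A n) {x | l x ≤ y n}) →
    (∀ n, DepOn (B n) {x | y n + 2 * u n ≤ l x}) → (∀ n, nu (fun H => A n H ^ 2) ≤ C) →
    (∀ n, nu (fun H => B n H ^ 2) ≤ C) →
    (∀ t : ℕ, K ≤ t →
      Tendsto (fun n => nu fun H => A n H * sh (((t * u n : ℕ) : ℤ) • v) (B n) H) atTop (𝓝 0)) →
    Tendsto (fun n => nu fun H => A n H * B n H) atTop (𝓝 0)

/-- The move across rows. -/
def S_mv0 : Prop := Mv (fun x => x.2) (-1, 2)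

/-- The five moves that are used. -/
structure S_mv : Prop where
  up : Mv (fun x => x.2) (-1, 2)
  down : Mv (fun x => -x.2) (1, -2)
  ne : Mv (fun x => x.1 + x.2) (1, 1)
  se : Mv (fun x => x.1) (2, -1)
  sw : Mv (fun x => -(x.1 + x.2)) (-1, -1)

/-- Abstract form of MOVES. -/
def S_movA : Prop :=
  ∀ (X : ℕ → Cfg → ℝ) (ρ s u w R : ℕ → ℕ) (P : ℕ) (C : ℝ), (∀ n, Loc (X n)) →
    (∀ n, DepOn (X n) (hex 0 (ρ n))) → (∀ n, nu (fun H => X n H ^ 2) ≤ C) →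
    Tendsto (fun n => nu fun H => X n H * act (rf (-(ρ n : ℤ))) (X n) H) atTop (𝓝 0) →
    (∀ n, ρ n ≤ s n ∧ s n + 2 * ρ n + 4 * u n ≤ w n ∧ ρ n ≤ R n ∧ R n ≤ P * u n) →
    ∀ ε : ℝ, 0 < ε → ∀ᶠ n in atTop, ∀ T B L Q : Cfg → ℝ, Pc (pT (s n) (u n) (R n)) T →
      Pc (pB (s n) (u n) (R n)) B → Pc (pL (s n) (w n) (R n)) L → Pc (pR (s n) (w n) (R n)) Q →
      |nu fun H => X n H * (T H * B H * L H * Q H)| ≤ ε

/-- The discrete Laplacian of a test function: zero sum, bounded second moment, small norm. -/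
def S_lap : Prop :=
  ∀ φ : ℂ → ℝ, ContDiff ℝ 4 φ → HasCompactSupport φ → ∀ (δ : ℕ → ℝ) (c : ℕ → ℂ) (k : ℕ → ℕ)
    (B : ℝ) (a : ℕ → V →₀ ℝ), (∀ n, 0 < δ n) → Tendsto δ atTop (𝓝 0) → (∀ n, ‖c n‖ ≤ B) →
    (∀ n, δ n * k n ≤ B) → (∀ n z, z.im ≤ -(δ n * k n * √3) → φ (z + c n) = 0) →
    (∀ n x, a n x = P153.Spec.lap (fun y => φ (δ n * P153.Spec.pos y + c n)) x) →
    (∀ n, ∀ x ∈ (a n).support, x ∈ hex 0 (2 * k n)) →
    (∀ n, ((a n).sum fun _ c => c) = 0) ∧ (∃ C, ∀ n, nu (fun H => lin (a n) H ^ 2) ≤ C) ∧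
      Tendsto (fun n => nu fun H => lin (a n) H * act (rf (-((2 * k n : ℕ) : ℤ))) (lin (a n)) H)
        atTop (𝓝 0)

/-- MOVES, the output of the module (in infinite and in finite volume). -/
def Moves : Prop :=
  ∀ φ : ℂ → ℝ, ContDiff ℝ 4 φ → HasCompactSupport φ → ∀ (δ : ℕ → ℝ) (c : ℕ → ℂ) (k : ℕ → ℕ)
    (B : ℝ) (a : ℕ → V →₀ ℝ), (∀ n, 0 < δ n) → Tendsto δ atTop (𝓝 0) → (∀ n, ‖c n‖ ≤ B) →
    (∀ n, δ n * k n ≤ B) → (∀ n z, z.im ≤ -(δ n * k n * √3) → φ (z + c n) = 0) →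
    (∀ n x, a n x = P153.Spec.lap (fun y => φ (δ n * P153.Spec.pos y + c n)) x) →
    (∀ n, ∀ x ∈ (a n).support, x ∈ hex 0 (2 * k n)) →
    ∀ (s u w R : ℕ → ℕ) (P : ℕ),
    (∀ n, 2 * k n ≤ s n ∧ s n + 4 * k n + 4 * u n ≤ w n ∧ 2 * k n ≤ R n ∧ R n ≤ P * u n) →
    ∀ ε : ℝ, 0 < ε → ∀ᶠ n in atTop, ∀ T B L Q : Cfg → ℝ, Pc (pT (s n) (u n) (R n)) T →
      Pc (pB (s n) (u n) (R n)) B → Pc (pL (s n) (w n) (R n)) L → Pc (pR (s n) (w n) (R n)) Q →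
      |nu fun H => lin (a n) H * (T H * B H * L H * Q H)| ≤ ε ∧ ∀ᶠ N : ℕ in atTop,
        |Ex (free (hex 0 N) 0) fun H => lin (a n) H * (T H * B H * L H * Q H)| ≤ 2 * ε

end Vale.Agent.P153.Nu
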