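import Vale.Agent.P153.Nu.Loc
import Vale.Agent.P153.Nu.Rp0
import Vale.Agent.P153.Nu.Fun
import Vale.Agent.P153.Nu.Abs
import Vale.Agent.P153.Nu.Mv0
import Vale.Agent.P153.Nu.Mv
import Vale.Agent.P153.Nu.MovA
import Vale.Agent.P153.Nu.Data
import Vale.Agent.P153.Nu.Lap
import Vale.Agent.P153.Spec.Har

/-! P153, module NU: assembly. -/

open Set Filter Topology

noncomputable section
namespace Vale.Agent.P153.Nu

theorem nu_all (tv : TVI) : S_nu := s_nu tv s_loc s_rp0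

theorem data_all (tv : TVI) (vs : VSub) : S_data := s_data vs s_loc (nu_all tv)

theorem lap_all (tv : TVI) (vs : VSub) (m2 : M2) : S_lap :=
  s_lap m2 P153.Spec.har s_loc (nu_all tv) (data_all tv vs)

theorem mv_all (tv : TVI) : S_mv := s_mv s_loc (nu_all tv) (s_mv0 s_loc (nu_all tv) s_abs)

theorem movA_all (tv : TVI) : S_movA := s_movA s_loc (nu_all tv) (mv_all tv)

theorem moves (tv : TVI) (vs : VSub) (m2 : M2) : Moves := by
  intro φ h1 h2 δ c k B a h3 h4 h5 h6 h7 h8 h9 s u w R P hg ε hε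
  obtain ⟨z, ⟨C, hC⟩, ht⟩ := lap_all tv vs m2 φ h1 h2 δ c k B a h3 h4 h5 h6 h7 h8 h9
  have lx := fun n => s_loc.lin (a n) (z n)
  have := movA_all tv (fun n => lin (a n)) (fun n => 2 * k n) s u w R P C lx
    (fun n H H' h => Finset.sum_congr rfl fun x hx => by simp only [h x (h9 n x hx)]) hC ht
    (fun n => by have := hg n; omega) ε hε
  filter_upwards [this] with n hn T B L Q hT hB hL hQ
  refine ⟨hn T B L Q hT hB hL hQ, ?_⟩
  have f : ∀ {A : Set V} {Φ}, (∀ x ∈ A, x ∈ hex 0 (R n)) → Pc A Φ → Loc Φ := fun h =>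
    s_loc.pc _ _ ((hex_finite 0 _).subset h)
  have := ((nu_all tv).tend _ (s_loc.mul _ _ (lx n) (s_loc.mul _ _ (s_loc.mul _ _ (s_loc.mul _ _
    (f (fun _ h => h.1) hT) (f (fun _ h => h.1) hB)) (f (fun _ h => h.1) hL))
    (f (fun _ h => h.1) hQ)))).abs
  exact this.eventually (ge_mem_nhds ((hn T B L Q hT hB hL hQ).trans_lt (by linarith)))

end Vale.Agent.P153.Nu
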